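import Vale.Agent.P207.N3.H289.Journe
import Vale.Agent.P207.N3.H862.JC

/-!
# Journe's lemma for families with jointly continuous derivatives (helper289, line N3)
-/

open Set Metric Filter Topology
open scoped ContDiff

namespace Vale.Agent.P207.N3.H289

open Vale.Agent.P214.TAYL

variable {Z E1 E2 W : Type} [NormedAddCommGroup Z] [NormedSpace ℝ Z]
  [NormedAddCommGroup E1] [NormedSpace ℝ E1] [NormedAddCommGroup E2] [NormedSpace ℝ E2]
  [NormedAddCommGroup W] [NormedSpace ℝ W]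

omit [NormedSpace ℝ Z] in
/-- A continuous function is bounded near a point. -/
theorem exists_bound_near {V F : Type} [NormedAddCommGroup V] [NormedSpace ℝ V]
    [NormedAddCommGroup F] {S : Set (Z × V)} {g : Z × V → F} (hS : IsOpen S)
    (hg : ContinuousOn g S) {z0 : Z} (h0 : (z0, (0 : V)) ∈ S) :
    ∃ R D : ℝ, 0 < R ∧ ∀ z ∈ ball z0 R, ∀ a ∈ ball (0 : V) R, (z, a) ∈ S ∧ ‖g (z, a)‖ ≤ D := by
  have h1 : ContinuousAt g (z0, 0) := hg.continuousAt (hS.mem_nhds h0)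
  have h2 : ∀ᶠ p in 𝓝 (z0, (0 : V)), p ∈ S ∧ ‖g p‖ < ‖g (z0, 0)‖ + 1 := by
    have h5 : ∀ᶠ p in 𝓝 (z0, (0 : V)), p ∈ S := hS.mem_nhds h0
    have h6 : ∀ᶠ p in 𝓝 (z0, (0 : V)), ‖g p‖ < ‖g (z0, 0)‖ + 1 :=
      h1.norm.eventually (gt_mem_nhds (by linarith : ‖g (z0, 0)‖ < ‖g (z0, 0)‖ + 1))
    exact h5.and h6
  rw [Metric.eventually_nhds_iff_ball] at h2
  obtain ⟨R, hR, h3⟩ := h2
  refine ⟨R, ‖g (z0, 0)‖ + 1, hR, ?_⟩
  intro z hz a ha
  have h4 : (z, a) ∈ ball (z0, (0 : V)) R := by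
    rw [← ball_prod_same]
    exact ⟨hz, ha⟩
  exact ⟨(h3 _ h4).1, (h3 _ h4).2.le⟩

theorem leafBd_of_jc {f : Z → W} {α : Z → E1 → Z} {S : Set (Z × E1)} (hα : JC α S)
    (hf : JC (fun z a => f (α z a)) S) {z0 : Z} (h0 : (z0, (0 : E1)) ∈ S)
    (hz : ∀ᶠ z in 𝓝 z0, α z 0 = z) (n : ℕ) : LeafBd n {z0} f α := by
  intro z1 hz1
  obtain rfl : z1 = z0 := hz1
  obtain ⟨R0, hR0, hz'⟩ := Metric.eventually_nhds_iff_ball.1 hz
  -- bounds for all the derivatives of the leaves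
  have h1 : ∀ m : ℕ, ∃ R D : ℝ, 0 < R ∧ ∀ z ∈ ball z1 R, ∀ a ∈ ball (0 : E1) R,
      (z, a) ∈ S ∧ ∀ i, i ≤ m → ‖iteratedFDeriv ℝ i (α z) a‖ ≤ D := by
    intro m
    induction m with
    | zero =>
      obtain ⟨R, D, hR, h2⟩ := exists_bound_near hα.isOpen (hα.cont 0) h0
      refine ⟨R, D, hR, fun z hz a ha => ⟨(h2 z hz a ha).1, ?_⟩⟩
      intro i hi
      obtain rfl : i = 0 := by omega
      exact (h2 z hz a ha).2
    | succ m ih =>
      obtain ⟨R, D, hR, h2⟩ := ih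
      obtain ⟨R', D', hR', h3⟩ := exists_bound_near hα.isOpen (hα.cont (m + 1)) h0
      refine ⟨min R R', max D D', lt_min hR hR', ?_⟩
      intro z hz a ha
      have hz1 := ball_subset_ball (min_le_left R R') hz
      have hz2 := ball_subset_ball (min_le_right R R') hz
      have ha1 := ball_subset_ball (min_le_left R R') ha
      have ha2 := ball_subset_ball (min_le_right R R') ha
      refine ⟨(h2 z hz1 a ha1).1, ?_⟩
      intro i hi
      rcases Nat.lt_or_ge m i with hmi | him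
      · obtain rfl : i = m + 1 := by omega
        exact (h3 z hz2 a ha2).2.trans (le_max_right _ _)
      · exact ((h2 z hz1 a ha1).2 i him).trans (le_max_left _ _)
  obtain ⟨R1, D1, hR1, h2⟩ := h1 n
  obtain ⟨R2, D2, hR2, h3⟩ := exists_bound_near hf.isOpen (hf.cont n) h0
  refine ⟨min R0 (min R1 R2), max D1 D2, lt_min hR0 (lt_min hR1 hR2), ?_⟩
  intro z hz
  have hb0 : z ∈ ball z1 R0 := ball_subset_ball (min_le_left _ _) hz
  have hb1 : z ∈ ball z1 R1 := ball_subset_ball ((min_le_right _ _).trans (min_le_left _ _)) hz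
  have hb2 : z ∈ ball z1 R2 := ball_subset_ball ((min_le_right _ _).trans (min_le_right _ _)) hz
  have hs1 : ball (0 : E1) (min R0 (min R1 R2)) ⊆ ball 0 R1 :=
    ball_subset_ball ((min_le_right _ _).trans (min_le_left _ _))
  have hs2 : ball (0 : E1) (min R0 (min R1 R2)) ⊆ ball 0 R2 :=
    ball_subset_ball ((min_le_right _ _).trans (min_le_right _ _))
  have hsub : ball (0 : E1) (min R0 (min R1 R2)) ⊆ {u | (z, u) ∈ S} := fun a ha =>
    (h2 z hb1 a (hs1 ha)).1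
  refine ⟨hz' z hb0, ?_, ?_, ?_, ?_⟩
  · exact ((hα.smooth z).mono hsub).of_le (by exact_mod_cast le_top)
  · intro a ha i _ hi
    exact ((h2 z hb1 a (hs1 ha)).2 i hi).trans (le_max_left _ _)
  · exact ((hf.smooth z).mono hsub).of_le (by exact_mod_cast le_top)
  · intro a ha
    exact (h3 z hb2 a (hs2 ha)).2.trans (le_max_right _ _)

/-- **Journe's lemma** for families with jointly continuous derivatives, at one point. -/
theorem journe_jc [FiniteDimensional ℝ Z] [FiniteDimensional ℝ E1] [FiniteDimensional ℝ E2]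
    [FiniteDimensional ℝ W] {f : Z → W} {α : Z → E1 → Z} {β : Z → E2 → Z}
    {S1 : Set (Z × E1)} {S2 : Set (Z × E2)} (hα : JC α S1)
    (hfα : JC (fun z a => f (α z a)) S1) (hβ : JC β S2) (hfβ : JC (fun z b => f (β z b)) S2)
    {z0 : Z} (h1 : (z0, (0 : E1)) ∈ S1) (h2 : (z0, (0 : E2)) ∈ S2)
    (hα0 : ∀ᶠ z in 𝓝 z0, α z 0 = z) (hβ0 : ∀ᶠ z in 𝓝 z0, β z 0 = z)
    (hbij : Function.Bijective (fun p : E1 × E2 => fderiv ℝ (α z0) 0 p.1 +
      fderiv ℝ (β z0) 0 p.2)) : ContDiffAt ℝ ∞ f z0 := by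
  have hc : ContinuousAt f z0 := by
    have h3 : ContinuousAt (fun p : Z × E1 => f (α p.1 p.2)) (z0, 0) :=
      hfα.continuousOn.continuousAt (hfα.isOpen.mem_nhds h1)
    have h4 : ContinuousAt (fun z : Z => f (α z 0)) z0 :=
      ContinuousAt.comp (f := fun z : Z => (z, (0 : E1))) h3 (by fun_prop)
    refine h4.congr ?_
    filter_upwards [hα0] with z hz
    rw [hz]
  refine journe_infty (U := {z0}) (σ := α) (τ := β) (leafBd_of_jc hα hfα h1 hα0)
    (leafBd_of_jc hβ hfβ h2 hβ0) ?_ ?_ ?_ ?_ z0 rfl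
  · intro z hz
    obtain rfl : z = z0 := hz
    have h3 : ContinuousAt (fun p : Z × E1 => fderiv ℝ (α p.1) p.2) (z, 0) :=
      hα.fderiv.continuousOn.continuousAt (hα.isOpen.mem_nhds h1)
    exact ContinuousAt.comp (f := fun z : Z => (z, (0 : E1))) h3 (by fun_prop)
  · intro z hz
    obtain rfl : z = z0 := hz
    have h3 : ContinuousAt (fun p : Z × E2 => fderiv ℝ (β p.1) p.2) (z, 0) :=
      hβ.fderiv.continuousOn.continuousAt (hβ.isOpen.mem_nhds h2)
    exact ContinuousAt.comp (f := fun z : Z => (z, (0 : E2))) h3 (by fun_prop)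
  · intro z hz
    obtain rfl : z = z0 := hz
    exact hbij
  · refine locBdd_of_continuousAt ?_
    intro z hz
    obtain rfl : z = z0 := hz
    exact hc

end Vale.Agent.P207.N3.H289
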