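import Mathlib

/-!
# Intersection of two nearly flat leaves (helper289, line N3, Journe's lemma)
-/

open Set Metric Filter Topology

namespace Vale.Agent.P207.N3.H289

/-- `σ` is `δ`-close (in the Lipschitz sense) to the linear map `L` on the ball of radius `ρ`. -/
def Near {X V : Type} [NormedAddCommGroup X] [NormedSpace ℝ X] [NormedAddCommGroup V]
    [NormedSpace ℝ V] (σ : X → V) (L : X →L[ℝ] V) (δ ρ : ℝ) : Prop :=
  ∀ a a' : X, ‖a‖ ≤ ρ → ‖a'‖ ≤ ρ → ‖σ a - σ a' - L (a - a')‖ ≤ δ * ‖a - a'‖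

variable {X Y : Type} [NormedAddCommGroup X] [NormedSpace ℝ X] [CompleteSpace X]
  [NormedAddCommGroup Y] [NormedSpace ℝ Y] [CompleteSpace Y]

/-- **Transversal leaves meet**, at scale `r`. -/
theorem inter {σ : X → X × Y} {τ : Y → X × Y} {δ r : ℝ} (hδ0 : 0 ≤ δ) (hδ : δ ≤ 1 / 12)
    (hr : 0 < r) (hσ : Near σ (ContinuousLinearMap.inl ℝ X Y) δ (3 * r))
    (hτ : Near τ (ContinuousLinearMap.inr ℝ X Y) δ (3 * r)) {t : Y} {z : X × Y}
    (hσ0 : σ 0 = (0, t)) (hτ0 : τ 0 = z) (ht : ‖t‖ ≤ r) (hz : ‖z‖ ≤ r) :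
    ∃ a b, ‖a - z.1‖ ≤ 6 * δ * r ∧ ‖b - (t - z.2)‖ ≤ 6 * δ * r ∧ σ a = τ b := by
  have hz1 : ‖z.1‖ ≤ r := (norm_fst_le z).trans hz
  have hz2 : ‖z.2‖ ≤ r := (norm_snd_le z).trans hz
  have hδr : 6 * δ * r ≤ r / 2 := by nlinarith
  have hδr0 : 0 ≤ 6 * δ * r := by positivity
  have htz : ‖t - z.2‖ ≤ 2 * r := by
    refine (norm_sub_le _ _).trans ?_
    linarith
  set c : X × Y := (z.1, t - z.2) with hc
  set N : X × Y → X × Y := fun p =>
    (p.1 - (σ p.1 - τ p.2).1, p.2 + (σ p.1 - τ p.2).2) with hN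
  have hdom : ∀ p ∈ closedBall c (6 * δ * r), ‖p.1‖ ≤ 3 * r ∧ ‖p.2‖ ≤ 3 * r := by
    intro p hp
    rw [mem_closedBall, dist_eq_norm] at hp
    have h1 : ‖p.1 - z.1‖ ≤ 6 * δ * r := (norm_fst_le (p - c)).trans hp
    have h2 : ‖p.2 - (t - z.2)‖ ≤ 6 * δ * r := (norm_snd_le (p - c)).trans hp
    constructor
    · calc ‖p.1‖ = ‖(p.1 - z.1) + z.1‖ := by congr 1; abel
        _ ≤ ‖p.1 - z.1‖ + ‖z.1‖ := norm_add_le _ _
        _ ≤ 3 * r := by linarith
    · calc ‖p.2‖ = ‖(p.2 - (t - z.2)) + (t - z.2)‖ := by congr 1; abel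
        _ ≤ ‖p.2 - (t - z.2)‖ + ‖t - z.2‖ := norm_add_le _ _
        _ ≤ 3 * r := by linarith
  -- Lipschitz estimate
  have hlip : ∀ p ∈ closedBall c (6 * δ * r), ∀ q ∈ closedBall c (6 * δ * r),
      ‖N p - N q‖ ≤ 2 * δ * ‖p - q‖ := by
    intro p hp q hq
    have hp' := hdom p hp
    have hq' := hdom q hq
    have h1 := hσ p.1 q.1 hp'.1 hq'.1
    have h2 := hτ p.2 q.2 hp'.2 hq'.2
    have h3 : ‖p.1 - q.1‖ ≤ ‖p - q‖ := norm_fst_le (p - q)
    have h4 : ‖p.2 - q.2‖ ≤ ‖p - q‖ := norm_snd_le (p - q)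
    set e1 := σ p.1 - σ q.1 - ContinuousLinearMap.inl ℝ X Y (p.1 - q.1) with he1
    set e2 := τ p.2 - τ q.2 - ContinuousLinearMap.inr ℝ X Y (p.2 - q.2) with he2
    have h5 : N p - N q = (-(e1 - e2).1, (e1 - e2).2) := by
      simp only [hN, he1, he2]
      ext
      · simp
        abel
      · simp
        abel
    have h6 : ‖e1 - e2‖ ≤ 2 * δ * ‖p - q‖ := by
      refine (norm_sub_le _ _).trans ?_
      have h7 : δ * ‖p.1 - q.1‖ ≤ δ * ‖p - q‖ := mul_le_mul_of_nonneg_left h3 hδ0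
      have h8 : δ * ‖p.2 - q.2‖ ≤ δ * ‖p - q‖ := mul_le_mul_of_nonneg_left h4 hδ0
      linarith
    rw [h5, Prod.norm_mk, norm_neg]
    exact (max_le (norm_fst_le _) (norm_snd_le _)).trans h6
  have hcc : c ∈ closedBall c (6 * δ * r) := mem_closedBall_self hδr0
  -- the centre is moved by at most `3 δ r`
  have hcen : ‖N c - c‖ ≤ 3 * δ * r := by
    have h1 := hσ z.1 0 (by linarith) (by simp; positivity)
    have h2 := hτ (t - z.2) 0 (by linarith) (by simp; positivity)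
    rw [hσ0, sub_zero] at h1
    rw [hτ0, sub_zero] at h2
    set e1 := σ z.1 - (0, t) - ContinuousLinearMap.inl ℝ X Y z.1 with he1
    set e2 := τ (t - z.2) - z - ContinuousLinearMap.inr ℝ X Y (t - z.2) with he2
    have h5 : N c - c = (-(e1 - e2).1, (e1 - e2).2) := by
      simp only [hN, he1, he2, hc]
      ext
      · simp
      · simp
    have h6 : ‖e1 - e2‖ ≤ 3 * δ * r := by
      refine (norm_sub_le _ _).trans ?_
      have h7 : δ * ‖z.1‖ ≤ δ * r := mul_le_mul_of_nonneg_left hz1 hδ0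
      have h8 : δ * ‖t - z.2‖ ≤ δ * (2 * r) := mul_le_mul_of_nonneg_left htz hδ0
      linarith
    rw [h5, Prod.norm_mk, norm_neg]
    exact (max_le (norm_fst_le _) (norm_snd_le _)).trans h6
  have hmaps : MapsTo N (closedBall c (6 * δ * r)) (closedBall c (6 * δ * r)) := by
    intro p hp
    have h1 := hlip p hp c hcc
    rw [mem_closedBall, dist_eq_norm] at hp ⊢
    have h2 : 2 * δ * ‖p - c‖ ≤ 2 * δ * (6 * δ * r) :=
      mul_le_mul_of_nonneg_left hp (by positivity)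
    have h3 : 2 * δ * (6 * δ * r) ≤ 3 * δ * r := by
      have : 12 * δ ≤ 3 := by linarith
      nlinarith [mul_nonneg hδ0 hr.le]
    calc ‖N p - c‖ = ‖(N p - N c) + (N c - c)‖ := by congr 1; abel
      _ ≤ ‖N p - N c‖ + ‖N c - c‖ := norm_add_le _ _
      _ ≤ 6 * δ * r := by linarith
  have hcontr : ContractingWith (1 / 2) (hmaps.restrict N _ _) := by
    refine ⟨by norm_num, LipschitzWith.of_dist_le_mul ?_⟩
    intro p q
    rw [Subtype.dist_eq, Subtype.dist_eq, dist_eq_norm, dist_eq_norm]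
    refine (hlip p.1 p.2 q.1 q.2).trans ?_
    have h1 : 2 * δ ≤ ((1 / 2 : NNReal) : ℝ) := by
      push_cast
      linarith
    exact mul_le_mul_of_nonneg_right h1 (norm_nonneg _)
  obtain ⟨p, hp, hfix, -⟩ := hcontr.exists_fixedPoint' isClosed_closedBall.isComplete hmaps hcc
    (edist_ne_top _ _)
  have hf : N p = p := hfix
  rw [mem_closedBall, dist_eq_norm] at hp
  refine ⟨p.1, p.2, (norm_fst_le (p - c)).trans hp, (norm_snd_le (p - c)).trans hp, ?_⟩
  have h1 := congrArg Prod.fst hf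
  have h2 := congrArg Prod.snd hf
  simp only [hN] at h1 h2
  rw [sub_eq_self] at h1
  rw [add_eq_left] at h2
  exact sub_eq_zero.1 (Prod.ext h1 h2)

end Vale.Agent.P207.N3.H289
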