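import Vale.Agent.P207.N3.H289.Nodes
import Vale.Agent.P207.N3.H289.Inter

/-!
# The interpolation step at one scale (helper289, line N3, Journe's lemma)
-/

open Set Metric Filter Topology

namespace Vale.Agent.P207.N3.H289

open Vale.Agent.P214.TAYL

universe u

theorem poly_lip (k : ℕ) (E : Type) [NormedAddCommGroup E] [NormedSpace ℝ E] :
    ∃ C : ℝ, 0 < C ∧ ∀ (P : E → ℝ), IsPoly k P → ∀ r M : ℝ, 0 < r →
      (∀ a, ‖a‖ ≤ 3 * r → |P a| ≤ M) → ∀ a a', ‖a‖ ≤ 5 / 2 * r → ‖a'‖ ≤ 5 / 2 * r →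
      |P a - P a'| ≤ C * M / r * ‖a - a'‖ := by
  obtain ⟨C, hC, h⟩ := markov (E := E) k
  refine ⟨2 * C, by positivity, ?_⟩
  intro P hP r M hr hM a a' ha ha'
  have h1 : ∀ x ∈ closedBall (0 : E) (5 / 2 * r), ‖fderiv ℝ P x‖ ≤ 2 * C * M / r := by
    intro x hx
    have h2 := h P hP x (r / 2) M (by positivity) (by
      intro z hz
      refine hM z ?_
      rw [mem_closedBall, dist_zero_right] at hx
      calc ‖z‖ = ‖(z - x) + x‖ := by congr 1; abel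
        _ ≤ ‖z - x‖ + ‖x‖ := norm_add_le _ _
        _ ≤ 3 * r := by linarith)
    refine h2.trans (le_of_eq ?_)
    field_simp
  have h3 := (convex_closedBall (0 : E) (5 / 2 * r)).norm_image_sub_le_of_norm_fderiv_le
    (𝕜 := ℝ) (f := P) (fun x _ => hP.differentiable x) h1
    (by simpa using ha' : a' ∈ closedBall (0 : E) (5 / 2 * r))
    (by simpa using ha : a ∈ closedBall (0 : E) (5 / 2 * r))
  exact h3

/-- A nearly flat leaf through a point of the ball of radius `r` stays in the ball of radius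
`5 r`. -/
theorem near_le {X V : Type} [NormedAddCommGroup X] [NormedSpace ℝ X] [NormedAddCommGroup V]
    [NormedSpace ℝ V] {σ : X → V} {L : X →L[ℝ] V} {δ r : ℝ} (hr : 0 < r) (hδ : δ ≤ 1 / 12)
    (hL : ∀ a, ‖L a‖ = ‖a‖) (h : Near σ L δ (3 * r)) {z : V} (hz : ‖z‖ ≤ r) (h0 : σ 0 = z)
    {a : X} (ha : ‖a‖ ≤ 3 * r) : ‖σ a‖ ≤ 5 * r := by
  have h1 := h a 0 ha (by rw [norm_zero]; positivity)
  rw [h0, sub_zero] at h1
  have h2 : δ * ‖a‖ ≤ 1 / 12 * ‖a‖ := mul_le_mul_of_nonneg_right hδ (norm_nonneg a)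
  calc ‖σ a‖ = ‖(σ a - z - L a) + z + L a‖ := by congr 1; abel
    _ ≤ ‖σ a - z - L a‖ + ‖z‖ + ‖L a‖ := norm_add₃_le
    _ ≤ 5 * r := by rw [hL]; linarith

theorem norm_inl_eq {X Y : Type} [NormedAddCommGroup X] [NormedSpace ℝ X]
    [NormedAddCommGroup Y] [NormedSpace ℝ Y] (a : X) :
    ‖ContinuousLinearMap.inl ℝ X Y a‖ = ‖a‖ := by
  rw [ContinuousLinearMap.inl_apply, Prod.norm_mk, norm_zero]
  exact max_eq_left (norm_nonneg a)

theorem norm_inr_eq {X Y : Type} [NormedAddCommGroup X] [NormedSpace ℝ X]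
    [NormedAddCommGroup Y] [NormedSpace ℝ Y] (a : Y) :
    ‖ContinuousLinearMap.inr ℝ X Y a‖ = ‖a‖ := by
  rw [ContinuousLinearMap.inr_apply, Prod.norm_mk, norm_zero]
  exact max_eq_right (norm_nonneg a)

/-- Comparison of the two leaf polynomials at a node. -/
theorem node_cmp {X Y : Type} [NormedAddCommGroup X] [NormedSpace ℝ X] [CompleteSpace X]
    [NormedAddCommGroup Y] [NormedSpace ℝ Y] [CompleteSpace Y] {g : X × Y → ℝ}
    {σ : X → X × Y} {τ : Y → X × Y} {δ r M ε CX CY : ℝ} (hδ0 : 0 ≤ δ) (hδ : δ ≤ 1 / 12)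
    (hr : 0 < r) (hσ : Near σ (ContinuousLinearMap.inl ℝ X Y) δ (3 * r))
    (hτ : Near τ (ContinuousLinearMap.inr ℝ X Y) δ (3 * r)) {t : Y} {z : X × Y}
    (hσ0 : σ 0 = (0, t)) (hτ0 : τ 0 = z) (ht : ‖t‖ ≤ r) (hz : ‖z‖ ≤ r) (hM : 0 ≤ M)
    (hε : 0 ≤ ε) (hCX : 0 ≤ CX) (hCY : 0 ≤ CY)
    {p : X → ℝ} {q : Y → ℝ} (hp : ∀ a, ‖a‖ ≤ 3 * r → |g (σ a) - p a| ≤ ε)
    (hq : ∀ a, ‖a‖ ≤ 3 * r → |g (τ a) - q a| ≤ ε)
    (hpl : ∀ a a', ‖a‖ ≤ 5 / 2 * r → ‖a'‖ ≤ 5 / 2 * r → |p a - p a'| ≤ CX * M / r * ‖a - a'‖)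
    (hql : ∀ a a', ‖a‖ ≤ 5 / 2 * r → ‖a'‖ ≤ 5 / 2 * r → |q a - q a'| ≤ CY * M / r * ‖a - a'‖) :
    |q (t - z.2) - p z.1| ≤ (2 + 6 * (CX + CY)) * (ε + δ * M) := by
  obtain ⟨a, b, ha, hb, hab⟩ := inter hδ0 hδ hr hσ hτ hσ0 hτ0 ht hz
  have hz1 : ‖z.1‖ ≤ r := (norm_fst_le z).trans hz
  have hz2 : ‖z.2‖ ≤ r := (norm_snd_le z).trans hz
  have hδr : 6 * δ * r ≤ r / 2 := by nlinarith
  have htz : ‖t - z.2‖ ≤ 2 * r := by
    refine (norm_sub_le _ _).trans ?_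
    linarith
  have ha2 : ‖a‖ ≤ 5 / 2 * r := by
    calc ‖a‖ = ‖(a - z.1) + z.1‖ := by congr 1; abel
      _ ≤ ‖a - z.1‖ + ‖z.1‖ := norm_add_le _ _
      _ ≤ 5 / 2 * r := by linarith
  have hb2 : ‖b‖ ≤ 5 / 2 * r := by
    calc ‖b‖ = ‖(b - (t - z.2)) + (t - z.2)‖ := by congr 1; abel
      _ ≤ ‖b - (t - z.2)‖ + ‖t - z.2‖ := norm_add_le _ _
      _ ≤ 5 / 2 * r := by linarith
  have h1 := hp a (by linarith)
  have h2 := hq b (by linarith)
  rw [hab] at h1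
  have h3 := hpl a z.1 ha2 (by linarith)
  have h4 := hql b (t - z.2) hb2 (by linarith)
  have h5 : CX * M / r * ‖a - z.1‖ ≤ 6 * (CX * (δ * M)) := by
    calc CX * M / r * ‖a - z.1‖ ≤ CX * M / r * (6 * δ * r) :=
          mul_le_mul_of_nonneg_left ha (by positivity)
      _ = 6 * (CX * (δ * M)) := by field_simp
  have h6 : CY * M / r * ‖b - (t - z.2)‖ ≤ 6 * (CY * (δ * M)) := by
    calc CY * M / r * ‖b - (t - z.2)‖ ≤ CY * M / r * (6 * δ * r) :=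
          mul_le_mul_of_nonneg_left hb (by positivity)
      _ = 6 * (CY * (δ * M)) := by field_simp
  have h8 : 0 ≤ (CX + CY) * ε := by positivity
  have h9 : 0 ≤ δ * M := by positivity
  have h10 : (2 + 6 * (CX + CY)) * (ε + δ * M) = 2 * ε + 6 * ((CX + CY) * ε) + 2 * (δ * M) +
      6 * (CX * (δ * M)) + 6 * (CY * (δ * M)) := by ring
  rw [h10]
  rw [abs_le] at h1 h2 h3 h4 ⊢
  obtain ⟨h1a, h1b⟩ := h1
  obtain ⟨h2a, h2b⟩ := h2
  obtain ⟨h3a, h3b⟩ := h3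
  obtain ⟨h4a, h4b⟩ := h4
  constructor <;> linarith

/-- Derivatives of a product of two leaf polynomials. -/
theorem prod_deriv (N : ℕ) (X Y : Type) [NormedAddCommGroup X] [NormedSpace ℝ X]
    [NormedAddCommGroup Y] [NormedSpace ℝ Y] : ∃ C : ℝ, 0 < C ∧ ∀ (p : X → ℝ) (l : Y → ℝ)
      (r M L : ℝ), 0 < r → 0 ≤ M → 0 ≤ L → IsPoly N p → IsPoly N l →
      (∀ a, ‖a‖ ≤ 3 * r → |p a| ≤ M) → (∀ b, ‖b‖ ≤ 3 * r → |l (r⁻¹ • b)| ≤ L) →
      ContDiff ℝ (N + 1) (fun z : X × Y => p z.1 * l (r⁻¹ • z.2)) ∧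
      ∀ y : X × Y, ‖y‖ ≤ r → ‖iteratedFDeriv ℝ (N + 1)
        (fun z : X × Y => p z.1 * l (r⁻¹ • z.2)) y‖ ≤ C * M * L / r ^ (N + 1) := by
  choose Cm hCm hm using fun i => markov_all (E := X × Y) N i
  obtain ⟨C2, hC2⟩ : ∃ C2 : ℝ, C2 = ∑ i ∈ Finset.range (N + 2), Cm i := ⟨_, rfl⟩
  have hC2le : ∀ i, i ≤ N + 1 → Cm i ≤ C2 := fun i hi => by
    rw [hC2]
    exact Finset.single_le_sum (f := fun i => Cm i) (fun i _ => (hCm i).le)
      (Finset.mem_range.2 (by omega))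
  have hC20 : 0 < C2 := (hCm 0).trans_le (hC2le 0 (by omega))
  refine ⟨2 ^ (N + 1) * (C2 * C2), by positivity, ?_⟩
  intro p l r M L hr hM hL hp hl hpM hlL
  have hpV : IsPoly N (fun z : X × Y => p z.1) := by
    have h1 := isPoly_comp_clm hp (ContinuousLinearMap.fst ℝ X Y) 0
    simpa using h1
  have hlV : IsPoly N (fun z : X × Y => l (r⁻¹ • z.2)) := by
    have h1 := isPoly_comp_clm hl (r⁻¹ • ContinuousLinearMap.snd ℝ X Y) 0
    simpa using h1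
  have hpc := isPoly_contDiff hpV (N + 1)
  have hlc := isPoly_contDiff hlV (N + 1)
  refine ⟨by exact_mod_cast hpc.mul hlc, ?_⟩
  intro y hy
  refine (norm_iteratedFDeriv_mul_le hpc hlc y (n := N + 1) le_rfl).trans ?_
  have hball : ∀ z : X × Y, ‖z - y‖ ≤ r → ‖z‖ ≤ 3 * r := by
    intro z hz
    calc ‖z‖ = ‖(z - y) + y‖ := by congr 1; abel
      _ ≤ ‖z - y‖ + ‖y‖ := norm_add_le _ _
      _ ≤ 3 * r := by linarith
  have h3 : ∀ i, i ≤ N + 1 → ‖iteratedFDeriv ℝ i (fun z : X × Y => p z.1) y‖ ≤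
      C2 * M / r ^ i := by
    intro i hi
    refine (hm i _ hpV y r M hr ?_).trans ?_
    · intro z hz
      exact hpM z.1 ((norm_fst_le z).trans (hball z hz))
    · have := hC2le i hi
      gcongr
  have h4 : ∀ i, i ≤ N + 1 → ‖iteratedFDeriv ℝ i (fun z : X × Y => l (r⁻¹ • z.2)) y‖ ≤
      C2 * L / r ^ i := by
    intro i hi
    refine (hm i _ hlV y r L hr ?_).trans ?_
    · intro z hz
      exact hlL z.2 ((norm_snd_le z).trans (hball z hz))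
    · have := hC2le i hi
      gcongr
  calc ∑ i ∈ Finset.range (N + 1 + 1), ((N + 1).choose i : ℝ) *
        ‖iteratedFDeriv ℝ i (fun z : X × Y => p z.1) y‖ *
        ‖iteratedFDeriv ℝ (N + 1 - i) (fun z : X × Y => l (r⁻¹ • z.2)) y‖
      ≤ ∑ i ∈ Finset.range (N + 1 + 1), ((N + 1).choose i : ℝ) *
          ((C2 * C2) * L * M / r ^ (N + 1)) := by
        refine Finset.sum_le_sum fun i hi => ?_
        have hi' : i ≤ N + 1 := by
          have := Finset.mem_range.1 hi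
          omega
        rw [mul_assoc]
        refine mul_le_mul_of_nonneg_left ?_ (by positivity)
        refine (mul_le_mul (h3 i hi') (h4 (N + 1 - i) (by omega)) (norm_nonneg _)
          (by positivity)).trans (le_of_eq ?_)
        have h5 : r ^ (N + 1) = r ^ i * r ^ (N + 1 - i) := by
          rw [← pow_add]
          congr 1
          omega
        rw [h5]
        field_simp
    _ = 2 ^ (N + 1) * (C2 * C2) * M * L / r ^ (N + 1) := by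
        rw [← Finset.sum_mul]
        have h6 : ∑ i ∈ Finset.range (N + 1 + 1), ((N + 1).choose i : ℝ) = 2 ^ (N + 1) := by
          exact_mod_cast Nat.sum_range_choose (N + 1)
        rw [h6]
        ring

theorem exists_bound_nodes {Y : Type} [NormedAddCommGroup Y] [NormedSpace ℝ Y]
    [FiniteDimensional ℝ Y] {N : ℕ} (S : Finset Y) {l : Y → Y → ℝ} (hl : ∀ t, IsPoly N (l t)) :
    ∃ L : ℝ, 0 < L ∧ ∀ t ∈ S, ∀ y, ‖y‖ ≤ 3 → |l t y| ≤ L := by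
  have : ProperSpace Y := FiniteDimensional.proper ℝ Y
  have h1 : ∀ t, ∃ L : ℝ, ∀ y ∈ closedBall (0 : Y) 3, ‖l t y‖ ≤ L := fun t =>
    (isCompact_closedBall (0 : Y) 3).exists_bound_of_continuousOn
      (hl t).differentiable.continuous.continuousOn
  choose b hb using h1
  refine ⟨∑ t ∈ S, |b t| + 1, by positivity, ?_⟩
  intro t ht y hy
  have h2 := hb t y (by simpa using hy)
  rw [Real.norm_eq_abs] at h2
  have h3 : |b t| ≤ ∑ t ∈ S, |b t| :=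
    Finset.single_le_sum (f := fun t => |b t|) (fun i _ => abs_nonneg _) ht
  linarith [le_abs_self (b t)]

/-- Approximation by the interpolating polynomial. -/
theorem interp_approx {X Y : Type} [NormedAddCommGroup X] [NormedSpace ℝ X]
    [NormedAddCommGroup Y] [NormedSpace ℝ Y] {N : ℕ} {S : Finset Y} {l : Y → Y → ℝ}
    (hint : ∀ P : Y → ℝ, IsPoly N P → ∀ y, P y = ∑ t ∈ S, P t * l t y)
    {g : X × Y → ℝ} {p : Y → X → ℝ} {r ε L A : ℝ} (hr : 0 < r) (hA : 0 ≤ A)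
    {z : X × Y} {q : Y → ℝ} (hq : IsPoly N q) (hq0 : |g z - q 0| ≤ ε)
    (hL : ∀ t ∈ S, |l t (r⁻¹ • z.2)| ≤ L)
    (hcmp : ∀ t ∈ S, |q (r • t - z.2) - p t z.1| ≤ A) :
    |g z - ∑ t ∈ S, p t z.1 * l t (r⁻¹ • z.2)| ≤ ε + (S.card : ℝ) * L * A := by
  have h2 : IsPoly N (fun y : Y => q (-z.2 + (r • ContinuousLinearMap.id ℝ Y) y)) :=
    isPoly_comp_clm hq (r • ContinuousLinearMap.id ℝ Y) (-z.2)
  have h3 := hint _ h2 (r⁻¹ • z.2)
  have h4 : ∀ y : Y, -z.2 + (r • ContinuousLinearMap.id ℝ Y) y = r • y - z.2 := by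
    intro y
    change -z.2 + r • y = r • y - z.2
    abel
  simp only [h4] at h3
  rw [smul_inv_smul₀ hr.ne', sub_self] at h3
  have h5 : g z - ∑ t ∈ S, p t z.1 * l t (r⁻¹ • z.2) = (g z - q 0) +
      ∑ t ∈ S, (q (r • t - z.2) - p t z.1) * l t (r⁻¹ • z.2) := by
    rw [h3]
    simp only [sub_mul, Finset.sum_sub_distrib]
    ring
  rw [h5]
  refine (abs_add_le _ _).trans (add_le_add hq0 ?_)
  calc |∑ t ∈ S, (q (r • t - z.2) - p t z.1) * l t (r⁻¹ • z.2)|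
      ≤ ∑ t ∈ S, |(q (r • t - z.2) - p t z.1) * l t (r⁻¹ • z.2)| :=
        Finset.abs_sum_le_sum_abs _ _
    _ ≤ ∑ t ∈ S, A * L := by
        refine Finset.sum_le_sum fun t ht => ?_
        rw [abs_mul]
        exact mul_le_mul (hcmp t ht) (hL t ht) (abs_nonneg _) hA
    _ = (S.card : ℝ) * L * A := by
        rw [Finset.sum_const, nsmul_eq_mul]
        ring

/-- **Interpolation step.** -/
theorem int_step (N : ℕ) (X Y : Type) [NormedAddCommGroup X] [NormedSpace ℝ X]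
    [FiniteDimensional ℝ X] [NormedAddCommGroup Y] [NormedSpace ℝ Y] [FiniteDimensional ℝ Y] :
    ∃ C : ℝ, 0 < C ∧ ∀ (g : X × Y → ℝ) (σ : X × Y → X → X × Y) (τ : X × Y → Y → X × Y)
      (r θ G ε δ : ℝ), 0 < r → 0 < θ → θ ≤ 1 → 0 ≤ δ → δ ≤ 1 / 12 → 0 ≤ ε →
      (∀ z, ‖z‖ ≤ 5 * r → |g z| ≤ G) →
      (∀ z, ‖z‖ ≤ r → σ z 0 = z ∧ Near (σ z) (ContinuousLinearMap.inl ℝ X Y) δ (3 * r) ∧
        ∃ p, IsPoly N p ∧ ∀ a, ‖a‖ ≤ 3 * r → |g (σ z a) - p a| ≤ ε) →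
      (∀ z, ‖z‖ ≤ r → τ z 0 = z ∧ Near (τ z) (ContinuousLinearMap.inr ℝ X Y) δ (3 * r) ∧
        ∃ q, IsPoly N q ∧ ∀ b, ‖b‖ ≤ 3 * r → |g (τ z b) - q b| ≤ ε) →
      ∃ Q : X × Y → ℝ, IsPoly N Q ∧ ∀ y, ‖y‖ ≤ θ * r →
        |g y - Q y| ≤ C * (ε + δ * G + (G + ε) * θ ^ (N + 1)) := by
  classical
  have : CompleteSpace X := FiniteDimensional.complete ℝ X
  have : CompleteSpace Y := FiniteDimensional.complete ℝ Y
  obtain ⟨S, l, hS, hl, hint⟩ := exists_nodes N Y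
  obtain ⟨L, hL0, hL⟩ := exists_bound_nodes S hl
  obtain ⟨CX, hCX, hX⟩ := poly_lip N X
  obtain ⟨CY, hCY, hY⟩ := poly_lip N Y
  obtain ⟨C2, hC2, hder⟩ := prod_deriv N X Y
  obtain ⟨A1, hA1⟩ : ∃ A1 : ℝ, A1 = (S.card : ℝ) * L * (2 + 6 * (CX + CY)) := ⟨_, rfl⟩
  obtain ⟨A2, hA2⟩ : ∃ A2 : ℝ, A2 = (S.card : ℝ) * (C2 * L) := ⟨_, rfl⟩
  have hs0 : (0 : ℝ) ≤ (S.card : ℝ) := Nat.cast_nonneg _
  have hA10 : 0 ≤ A1 := by
    rw [hA1]
    exact mul_nonneg (mul_nonneg hs0 hL0.le) (by linarith)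
  have hA20 : 0 ≤ A2 := by
    rw [hA2]
    exact mul_nonneg hs0 (mul_nonneg hC2.le hL0.le)
  refine ⟨1 + 2 * A1 + A2, by linarith, ?_⟩
  intro g σ τ r θ G ε δ hr hθ hθ1 hδ0 hδ hε hg hσ hτ
  have hG0 : 0 ≤ G := (abs_nonneg _).trans (hg 0 (by rw [norm_zero]; positivity))
  have hM0 : 0 ≤ G + ε := by linarith
  -- choose the leaf polynomials
  have hpex : ∀ t : Y, ∃ p : X → ℝ, IsPoly N p ∧ (t ∈ S →
      ∀ a, ‖a‖ ≤ 3 * r → |g (σ (0, r • t) a) - p a| ≤ ε) := by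
    intro t
    by_cases ht : t ∈ S
    · obtain ⟨p, hp, hp2⟩ := (hσ (0, r • t) (by
        rw [Prod.norm_mk, norm_zero, norm_smul, Real.norm_eq_abs, abs_of_pos hr]
        refine max_le hr.le ?_
        calc r * ‖t‖ ≤ r * 1 := mul_le_mul_of_nonneg_left (hS t ht) hr.le
          _ = r := mul_one r)).2.2
      exact ⟨p, hp, fun _ => hp2⟩
    · exact ⟨fun _ => 0, isPoly_const N 0, fun h => absurd h ht⟩
  choose p hp hpε using hpex
  have hnode : ∀ t ∈ S, ‖((0 : X), r • t)‖ ≤ r := by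
    intro t ht
    rw [Prod.norm_mk, norm_zero, norm_smul, Real.norm_eq_abs, abs_of_pos hr]
    refine max_le hr.le ?_
    calc r * ‖t‖ ≤ r * 1 := mul_le_mul_of_nonneg_left (hS t ht) hr.le
      _ = r := mul_one r
  have hpG : ∀ t ∈ S, ∀ a, ‖a‖ ≤ 3 * r → |p t a| ≤ G + ε := by
    intro t ht a ha
    have h1 := hpε t ht a ha
    have h2 := hg _ (near_le hr hδ norm_inl_eq (hσ _ (hnode t ht)).2.1 (hnode t ht)
      (hσ _ (hnode t ht)).1 ha)
    rw [abs_le] at h1 h2 ⊢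
    constructor <;> linarith
  -- the interpolating polynomial
  have happ : ∀ z : X × Y, ‖z‖ ≤ r → |g z - ∑ t ∈ S, p t z.1 * l t (r⁻¹ • z.2)| ≤
      ε + A1 * (ε + δ * (G + ε)) := by
    intro z hz
    obtain ⟨hz0, hzN, q, hq, hqε⟩ := hτ z hz
    have hqG : ∀ a, ‖a‖ ≤ 3 * r → |q a| ≤ G + ε := by
      intro a ha
      have h1 := hqε a ha
      have h2 := hg _ (near_le hr hδ norm_inr_eq hzN hz hz0 ha)
      rw [abs_le] at h1 h2 ⊢
      constructor <;> linarith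
    have h0 := hqε 0 (by rw [norm_zero]; positivity)
    rw [hz0] at h0
    have hA0 : 0 ≤ (2 + 6 * (CX + CY)) * (ε + δ * (G + ε)) := by positivity
    refine (interp_approx hint hr hA0 hq h0 (L := L) ?_ ?_).trans (le_of_eq ?_)
    · intro t ht
      refine hL t ht _ ?_
      rw [norm_smul, norm_inv, Real.norm_eq_abs, abs_of_pos hr]
      have h1 : ‖z.2‖ ≤ r := (norm_snd_le z).trans hz
      rw [inv_mul_le_iff₀ hr]
      linarith
    · intro t ht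
      exact node_cmp hδ0 hδ hr (hσ _ (hnode t ht)).2.1 hzN (hσ _ (hnode t ht)).1 hz0
        ((norm_snd_le ((0 : X), r • t)).trans (hnode t ht)) hz hM0 hε hCX.le hCY.le
        (hpε t ht) hqε (hX _ (hp t) r (G + ε) hr (hpG t ht)) (hY _ hq r (G + ε) hr hqG)
    · rw [hA1]
      ring
  have hlb : ∀ t ∈ S, ∀ b : Y, ‖b‖ ≤ 3 * r → |l t (r⁻¹ • b)| ≤ L := by
    intro t ht b hb
    refine hL t ht _ ?_
    rw [norm_smul, norm_inv, Real.norm_eq_abs, abs_of_pos hr]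
    rw [inv_mul_le_iff₀ hr]
    linarith
  have hd := fun t (ht : t ∈ S) => hder (p t) (l t) r (G + ε) L hr hM0 hL0.le (hp t) (hl t)
    (hpG t ht) (hlb t ht)
  have hP'cd : ContDiff ℝ (N + 1) (fun z : X × Y => ∑ t ∈ S, p t z.1 * l t (r⁻¹ • z.2)) :=
    ContDiff.sum fun t ht => (hd t ht).1
  have hbd : ∀ y : X × Y, ‖y‖ ≤ r →
      ‖iteratedFDeriv ℝ (N + 1) (fun z : X × Y => ∑ t ∈ S, p t z.1 * l t (r⁻¹ • z.2)) y‖ ≤
        A2 * (G + ε) / r ^ (N + 1) := by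
    intro y hy
    rw [iteratedFDeriv_fun_sum_apply (fun t ht => by exact_mod_cast (hd t ht).1.contDiffAt)]
    refine (norm_sum_le _ _).trans ?_
    refine (Finset.sum_le_sum (fun t ht => (hd t ht).2 y hy)).trans (le_of_eq ?_)
    rw [Finset.sum_const, nsmul_eq_mul, hA2]
    ring
  have hθr : θ * r ≤ r := by nlinarith
  obtain ⟨Q, hQ, hQ2⟩ := exists_poly_of_contDiffAt (F := ℝ) N
    (v := fun z : X × Y => ∑ t ∈ S, p t z.1 * l t (r⁻¹ • z.2)) (x := 0) (r := θ * r)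
    (B := A2 * (G + ε) / r ^ (N + 1)) (by positivity)
    (fun y _ => hP'cd.contDiffAt)
    (fun y hy => hbd y (by rw [sub_zero] at hy; linarith))
  refine ⟨Q, hQ, ?_⟩
  intro y hy
  have h1 := happ y (hy.trans hθr)
  have h2 := hQ2 y (by rwa [sub_zero])
  rw [Real.norm_eq_abs] at h2
  have h3 : A2 * (G + ε) / r ^ (N + 1) * (θ * r) ^ (N + 1) = A2 * ((G + ε) * θ ^ (N + 1)) := by
    rw [mul_pow]
    field_simp
  rw [h3] at h2
  have h4 : g y - Q y = (g y - ∑ t ∈ S, p t y.1 * l t (r⁻¹ • y.2)) +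
      ((∑ t ∈ S, p t y.1 * l t (r⁻¹ • y.2)) - Q y) := by ring
  rw [h4]
  refine (abs_add_le _ _).trans ((add_le_add h1 h2).trans ?_)
  have h5 : δ * (G + ε) ≤ δ * G + ε := by nlinarith
  have h6 : 0 ≤ (G + ε) * θ ^ (N + 1) := by positivity
  have h7 : 0 ≤ δ * G := by positivity
  have h10 : A1 * (ε + δ * (G + ε)) ≤ A1 * (ε + (δ * G + ε)) :=
    mul_le_mul_of_nonneg_left (by linarith) hA10
  have h11 := mul_nonneg hA10 h6
  have h12 := mul_nonneg hA20 hε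
  have h13 := mul_nonneg hA20 h7
  have h14 := mul_nonneg hA10 hε
  have h15 := mul_nonneg hA10 h7
  have h16 : (1 + 2 * A1 + A2) * (ε + δ * G + (G + ε) * θ ^ (N + 1)) =
      (ε + A1 * (ε + (δ * G + ε)) + A2 * ((G + ε) * θ ^ (N + 1))) + (δ * G +
        (G + ε) * θ ^ (N + 1) + A1 * (δ * G) + 2 * (A1 * ((G + ε) * θ ^ (N + 1))) +
        A2 * ε + A2 * (δ * G)) := by ring
  rw [h16]
  linarith

end Vale.Agent.P207.N3.H289
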