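import Vale.Agent.P207.N3.H289.Rec2

/-!
# Journe's lemma (helper289, line N3)

A function which is uniformly `C^(k+2)` along the leaves of two transverse families of leaves
(parametrised, no consistency between different leaves needed, only the tangent planes have to
depend continuously on the point) is of class `C^k`.
-/

open Set Metric Filter Topology

namespace Vale.Agent.P207.N3.H289

open Vale.Agent.P214.TAYL

section Transfer

variable {X V E : Type} [NormedAddCommGroup X] [NormedSpace ℝ X] [NormedAddCommGroup V]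
    [NormedSpace ℝ V] [NormedAddCommGroup E] [NormedSpace ℝ E]

/-- The derivative of a leaf oscillates little. -/
theorem fderiv_osc {N : ℕ} (hN : 1 ≤ N) {σ : X → E} {D R : ℝ}
    (hcd : ContDiffOn ℝ (N + 1 : ℕ) σ (ball 0 R))
    (hbd : ∀ a ∈ ball (0 : X) R, ∀ i, 1 ≤ i → i ≤ N + 1 → ‖iteratedFDeriv ℝ i σ a‖ ≤ D)
    {a : X} (ha : a ∈ ball (0 : X) R) : ‖fderiv ℝ σ a - fderiv ℝ σ 0‖ ≤ D * ‖a‖ := by
  have hR : 0 < R := by
    rw [mem_ball_zero_iff] at ha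
    exact (norm_nonneg a).trans_lt ha
  have h1 : ContDiffOn ℝ (N : ℕ) (fderiv ℝ σ) (ball 0 R) :=
    ((contDiffOn_succ_iff_fderiv_of_isOpen isOpen_ball).1 (by exact_mod_cast hcd)).2.2
  have h2 := (convex_ball (0 : X) R).norm_image_sub_le_of_norm_fderiv_le (𝕜 := ℝ)
    (f := fderiv ℝ σ) (C := D) (x := 0) (y := a) (fun x hx =>
      (h1.contDiffAt (isOpen_ball.mem_nhds hx)).differentiableAt (by
        simp only [ne_eq, Nat.cast_eq_zero]
        omega)) (fun x hx => by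
      have h3 := hbd x hx 2 (by norm_num) (by omega)
      rw [← norm_iteratedFDeriv_fderiv, norm_iteratedFDeriv_one] at h3
      exact h3) (mem_ball_self hR) ha
  rwa [sub_zero] at h2

/-- Transfer of the leaf regularity to the linear chart `v ↦ x + L v`. -/
theorem leaf_transfer (L : V ≃L[ℝ] E) (J : X →L[ℝ] V) {σ : X → E} (x : E) {f : E → ℝ} {N : ℕ}
    {D K R η : ℝ} (hcd : ContDiffOn ℝ (N + 1 : ℕ) σ (ball 0 R))
    (hbd : ∀ a ∈ ball (0 : X) R, ∀ i, 1 ≤ i → i ≤ N + 1 → ‖iteratedFDeriv ℝ i σ a‖ ≤ D)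
    (hnear : ∀ a ∈ ball (0 : X) R, ‖fderiv ℝ σ a - (L : V →L[ℝ] E).comp J‖ ≤ η)
    (hfcd : ContDiffOn ℝ (N + 1 : ℕ) (fun a => f (σ a)) (ball 0 R))
    (hfbd : ∀ a ∈ ball (0 : X) R, ‖iteratedFDeriv ℝ (N + 1) (fun a => f (σ a)) a‖ ≤ K) :
    LeafReg N (fun v => f (x + L v)) (fun a => L.symm (σ a - x)) J
      (‖(L.symm : E →L[ℝ] V)‖ * η) (max 1 (‖(L.symm : E →L[ℝ] V)‖ * D)) K R := by
  have hsub : ContDiffOn ℝ (N + 1 : ℕ) (fun a => σ a - x) (ball 0 R) := hcd.sub contDiffOn_const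
  have hfs : (fun a => (fun v => f (x + L v)) ((fun a => L.symm (σ a - x)) a)) =
      fun a => f (σ a) := by
    funext a
    simp
  refine ⟨L.symm.contDiff.comp_contDiffOn hsub, ?_, ?_, ?_, ?_⟩
  · intro a ha i hi1 hi2
    have h1 : ContDiffAt ℝ (N + 1 : ℕ) (fun a => σ a - x) a :=
      hsub.contDiffAt (isOpen_ball.mem_nhds ha)
    have h2 : iteratedFDeriv ℝ i (fun a => L.symm (σ a - x)) a =
        (L.symm : E →L[ℝ] V).compContinuousMultilinearMap
          (iteratedFDeriv ℝ i (fun a => σ a - x) a) :=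
      (L.symm : E →L[ℝ] V).iteratedFDeriv_comp_left h1 (by exact_mod_cast hi2)
    have h3 : iteratedFDeriv ℝ i (fun a => σ a - x) a = iteratedFDeriv ℝ i σ a := by
      have h4 : iteratedFDeriv ℝ i (fun a => σ a - x) a =
          iteratedFDeriv ℝ i σ a - iteratedFDeriv ℝ i (fun _ : X => x) a :=
        iteratedFDeriv_sub_apply ((hcd.contDiffAt (isOpen_ball.mem_nhds ha)).of_le
          (by exact_mod_cast hi2)) contDiffAt_const
      rw [h4, iteratedFDeriv_const_of_ne (by omega)]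
      simp
    rw [h2, h3]
    calc ‖(L.symm : E →L[ℝ] V).compContinuousMultilinearMap (iteratedFDeriv ℝ i σ a)‖
        ≤ ‖(L.symm : E →L[ℝ] V)‖ * ‖iteratedFDeriv ℝ i σ a‖ :=
          ContinuousLinearMap.norm_compContinuousMultilinearMap_le _ _
      _ ≤ ‖(L.symm : E →L[ℝ] V)‖ * D :=
          mul_le_mul_of_nonneg_left (hbd a ha i hi1 hi2) (norm_nonneg _)
      _ ≤ max 1 (‖(L.symm : E →L[ℝ] V)‖ * D) := le_max_right _ _
      _ ≤ (max 1 (‖(L.symm : E →L[ℝ] V)‖ * D)) ^ i :=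
          le_self_pow₀ (le_max_left _ _) (by omega)
  · intro a ha
    have h1 : HasFDerivAt σ (fderiv ℝ σ a) a :=
      ((hcd.contDiffAt (isOpen_ball.mem_nhds ha)).differentiableAt (by simp)).hasFDerivAt
    have h2 : HasFDerivAt (fun a => L.symm (σ a - x))
        ((L.symm : E →L[ℝ] V).comp (fderiv ℝ σ a)) a :=
      (L.symm : E →L[ℝ] V).hasFDerivAt.comp a (h1.sub_const x)
    rw [h2.fderiv]
    have h3 : (L.symm : E →L[ℝ] V).comp (fderiv ℝ σ a) - J =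
        (L.symm : E →L[ℝ] V).comp (fderiv ℝ σ a - (L : V →L[ℝ] E).comp J) := by
      ext v
      simp
    rw [h3]
    exact (ContinuousLinearMap.opNorm_comp_le _ _).trans
      (mul_le_mul_of_nonneg_left (hnear a ha) (norm_nonneg _))
  · rw [hfs]
    exact hfcd
  · intro a ha
    rw [hfs]
    exact hfbd a ha

/-- Transfer of the approximation property back. -/
theorem approx_transfer (L : V ≃L[ℝ] E) {x : E} {f : E → ℝ} {k : ℕ} {C r1 : ℝ}
    (h : Approx k (fun v => f (x + L v)) C r1 0) :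
    Approx k f (C * (‖(L.symm : E →L[ℝ] V)‖ + 1) ^ (k + 1))
      (r1 / (‖(L.symm : E →L[ℝ] V)‖ + 1)) x := by
  intro r hr hrr
  have hL : 0 < ‖(L.symm : E →L[ℝ] V)‖ + 1 := by positivity
  rw [le_div_iff₀ hL] at hrr
  obtain ⟨P, hP, hP2⟩ := h (r * (‖(L.symm : E →L[ℝ] V)‖ + 1)) (by positivity) hrr
  refine ⟨fun y => P (-(L.symm x) + (L.symm : E →L[ℝ] V) y), isPoly_comp_clm hP _ _, ?_⟩
  intro y hy
  have h1 : -(L.symm x) + (L.symm : E →L[ℝ] V) y = L.symm (y - x) := by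
    rw [map_sub]
    change -(L.symm x) + L.symm y = _
    abel
  change ‖f y - P (-(L.symm x) + (L.symm : E →L[ℝ] V) y)‖ ≤ _
  rw [h1]
  have h2 := hP2 (L.symm (y - x)) (by
    rw [sub_zero]
    calc ‖L.symm (y - x)‖ ≤ ‖(L.symm : E →L[ℝ] V)‖ * ‖y - x‖ :=
          (L.symm : E →L[ℝ] V).le_opNorm _
      _ ≤ (‖(L.symm : E →L[ℝ] V)‖ + 1) * r := by
          refine mul_le_mul (by linarith) hy (norm_nonneg _) hL.le
      _ = r * (‖(L.symm : E →L[ℝ] V)‖ + 1) := mul_comm _ _)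
  have h3 : x + L (L.symm (y - x)) = y := by simp
  simp only [h3] at h2
  refine h2.trans (le_of_eq ?_)
  rw [mul_pow]
  ring

end Transfer

variable {E X Y W : Type} [NormedAddCommGroup E] [NormedSpace ℝ E]
  [NormedAddCommGroup X] [NormedSpace ℝ X] [NormedAddCommGroup Y] [NormedSpace ℝ Y]
  [NormedAddCommGroup W] [NormedSpace ℝ W]

/-- Locally uniform bounds of order `n` for a family of parametrised leaves `σ z` through the
points `z` of `U`, and for the function `f` along them. -/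
def LeafBd (n : ℕ) (U : Set E) (f : E → W) (σ : E → X → E) : Prop :=
  ∀ z0 ∈ U, ∃ R D : ℝ, 0 < R ∧ ∀ z ∈ ball z0 R, σ z 0 = z ∧
    ContDiffOn ℝ n (σ z) (ball 0 R) ∧
    (∀ a ∈ ball (0 : X) R, ∀ i, 1 ≤ i → i ≤ n → ‖iteratedFDeriv ℝ i (σ z) a‖ ≤ D) ∧
    ContDiffOn ℝ n (fun a => f (σ z a)) (ball 0 R) ∧
    ∀ a ∈ ball (0 : X) R, ‖iteratedFDeriv ℝ n (fun a => f (σ z a)) a‖ ≤ D

/-- **Journe's lemma**, local form, real valued functions. -/
theorem journe_at (k : ℕ) [FiniteDimensional ℝ E] [FiniteDimensional ℝ X]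
    [FiniteDimensional ℝ Y] {U : Set E} {f : E → ℝ} {σ : E → X → E}
    {τ : E → Y → E} (hσ : LeafBd (k + 2) U f σ) (hτ : LeafBd (k + 2) U f τ) {z0 : E}
    (hz0 : z0 ∈ U)
    (hσc : ContinuousAt (fun z => fderiv ℝ (σ z) 0) z0)
    (hτc : ContinuousAt (fun z => fderiv ℝ (τ z) 0) z0)
    (hbij : Function.Bijective (fun p : X × Y => fderiv ℝ (σ z0) 0 p.1 + fderiv ℝ (τ z0) 0 p.2))
    (hf : ∃ R M : ℝ, 0 < R ∧ ∀ z ∈ ball z0 R, |f z| ≤ M) :
    ContDiffAt ℝ k f z0 := by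
  -- the linear chart
  obtain ⟨L, hL⟩ : ∃ L : (X × Y) ≃L[ℝ] E, (∀ a, L (a, 0) = fderiv ℝ (σ z0) 0 a) ∧
      ∀ b, L (0, b) = fderiv ℝ (τ z0) 0 b := by
    let T : (X × Y) →ₗ[ℝ] E := (((fderiv ℝ (σ z0) 0).coprod (fderiv ℝ (τ z0) 0)) :
      (X × Y) →L[ℝ] E)
    have hT : Function.Bijective T := hbij
    refine ⟨(LinearEquiv.ofBijective T hT).toContinuousLinearEquiv, ?_, ?_⟩
    · intro a
      change T (a, 0) = _
      simp [T]
    · intro b
      change T (0, b) = _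
      simp [T]
  obtain ⟨δ, hδ, hmain⟩ := approx_zero k X Y
  obtain ⟨n1, hn1⟩ : ∃ n1 : ℝ, n1 = ‖(L.symm : E →L[ℝ] (X × Y))‖ + 1 := ⟨_, rfl⟩
  have hn1pos : 0 < n1 := by rw [hn1]; positivity
  obtain ⟨n2, hn2⟩ : ∃ n2 : ℝ, n2 = ‖(L : (X × Y) →L[ℝ] E)‖ + 1 := ⟨_, rfl⟩
  have hn2pos : 0 < n2 := by rw [hn2]; positivity
  obtain ⟨Rσ, Dσ, hRσ, hσ'⟩ := hσ z0 hz0
  obtain ⟨Rτ, Dτ, hRτ, hτ'⟩ := hτ z0 hz0
  obtain ⟨Rf, M, hRf, hf'⟩ := hf
  obtain ⟨D, hD⟩ : ∃ D : ℝ, D = max 1 (max Dσ Dτ) := ⟨_, rfl⟩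
  have hD1 : 1 ≤ D := by rw [hD]; exact le_max_left _ _
  have hDσ : Dσ ≤ D := by rw [hD]; exact (le_max_left _ _).trans (le_max_right _ _)
  have hDτ : Dτ ≤ D := by rw [hD]; exact (le_max_right _ _).trans (le_max_right _ _)
  -- continuity of the tangent planes
  have hη : 0 < δ / (2 * n1) := by positivity
  obtain ⟨ρ1, hρ1, hc1⟩ := Metric.continuousAt_iff.1 hσc _ hη
  obtain ⟨ρ2, hρ2, hc2⟩ := Metric.continuousAt_iff.1 hτc _ hη
  -- the radius
  obtain ⟨ρ, hρ⟩ : ∃ ρ : ℝ, ρ = min (min (min Rσ Rτ) (min ρ1 ρ2)) (min Rf (δ / (2 * n1 * D))) :=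
    ⟨_, rfl⟩
  have hρ0 : 0 < ρ := by
    rw [hρ]
    exact lt_min (lt_min (lt_min hRσ hRτ) (lt_min hρ1 hρ2)) (lt_min hRf (by positivity))
  have hρσ : ρ ≤ Rσ := by
    rw [hρ]
    exact (min_le_left _ _).trans ((min_le_left _ _).trans (min_le_left _ _))
  have hρτ : ρ ≤ Rτ := by
    rw [hρ]
    exact (min_le_left _ _).trans ((min_le_left _ _).trans (min_le_right _ _))
  have hρρ1 : ρ ≤ ρ1 := by
    rw [hρ]
    exact (min_le_left _ _).trans ((min_le_right _ _).trans (min_le_left _ _))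
  have hρρ2 : ρ ≤ ρ2 := by
    rw [hρ]
    exact (min_le_left _ _).trans ((min_le_right _ _).trans (min_le_right _ _))
  have hρf : ρ ≤ Rf := by
    rw [hρ]
    exact (min_le_right _ _).trans (min_le_left _ _)
  have hρδ : ρ ≤ δ / (2 * n1 * D) := by
    rw [hρ]
    exact (min_le_right _ _).trans (min_le_right _ _)
  have hDρ : D * ρ ≤ δ / (2 * n1) := by
    calc D * ρ ≤ D * (δ / (2 * n1 * D)) := mul_le_mul_of_nonneg_left hρδ (by linarith)
      _ = δ / (2 * n1) := by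
          have : D ≠ 0 := by linarith
          field_simp
  obtain ⟨R, hR⟩ : ∃ R : ℝ, R = min ρ (ρ / (2 * n2)) := ⟨_, rfl⟩
  have hR0 : 0 < R := by rw [hR]; exact lt_min hρ0 (by positivity)
  have hRρ : R ≤ ρ := by rw [hR]; exact min_le_left _ _
  have hRn2 : n2 * R ≤ ρ / 2 := by
    calc n2 * R ≤ n2 * (ρ / (2 * n2)) := by
          refine mul_le_mul_of_nonneg_left ?_ hn2pos.le
          rw [hR]
          exact min_le_right _ _
      _ = ρ / 2 := by field_simp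
  obtain ⟨C, r1, hC, hr1, happ⟩ := hmain (n1 * D) D M R (by positivity) (by linarith) hR0
  have hzin : ∀ x : E, ‖x - z0‖ < ρ / 2 → ∀ v : X × Y, ‖v‖ ≤ R → x + L v ∈ ball z0 ρ := by
    intro x hx v hv
    rw [mem_ball, dist_eq_norm]
    have h1 : ‖L v‖ ≤ ρ / 2 := by
      calc ‖L v‖ ≤ ‖(L : (X × Y) →L[ℝ] E)‖ * ‖v‖ := (L : (X × Y) →L[ℝ] E).le_opNorm v
        _ ≤ n2 * R := by
            refine mul_le_mul ?_ hv (norm_nonneg _) hn2pos.le
            rw [hn2]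
            linarith
        _ ≤ ρ / 2 := hRn2
    calc ‖x + L v - z0‖ = ‖(x - z0) + L v‖ := by congr 1; abel
      _ ≤ ‖x - z0‖ + ‖L v‖ := norm_add_le _ _
      _ < ρ := by linarith
  have hn1D : max 1 (‖(L.symm : E →L[ℝ] (X × Y))‖ * D) ≤ n1 * D := by
    refine max_le ?_ ?_
    · rw [hn1]
      nlinarith [norm_nonneg (L.symm : E →L[ℝ] (X × Y))]
    · refine mul_le_mul_of_nonneg_right ?_ (by linarith)
      rw [hn1]
      linarith
  have hn1δ : ‖(L.symm : E →L[ℝ] (X × Y))‖ * (δ / n1) ≤ δ := by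
    rw [mul_div_assoc', div_le_iff₀ hn1pos]
    rw [hn1]
    nlinarith
  refine contDiffAt_of_approx k (r0 := r1 / (‖(L.symm : E →L[ℝ] (X × Y))‖ + 1)) (by positivity)
    (C := C * (‖(L.symm : E →L[ℝ] (X × Y))‖ + 1) ^ (k + 1)) (by positivity) (half_pos hρ0) ?_
  intro x hx
  refine approx_transfer L ?_
  refine happ (fun v => f (x + L v)) (fun v a => L.symm (σ (x + L v) a - x))
    (fun v b => L.symm (τ (x + L v) b - x)) ⟨?_, ?_⟩ ?_
  · intro v hv
    have hz := hzin x hx v hv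
    obtain ⟨h0, hcd, hbd, hfcd, hfbd⟩ := hσ' _ (ball_subset_ball hρσ hz)
    have hbs : ball (0 : X) R ⊆ ball 0 Rσ := ball_subset_ball (hRρ.trans hρσ)
    refine ⟨by change L.symm (σ (x + L v) 0 - x) = v; rw [h0]; simp, ?_⟩
    have hreg := leaf_transfer L (ContinuousLinearMap.inl ℝ X Y) (σ := σ (x + L v)) x (f := f)
      (N := k + 1) (D := D) (K := D) (R := R) (η := δ / n1) (hcd.mono hbs)
      (fun a ha i hi1 hi2 => (hbd a (hbs ha) i hi1 hi2).trans hDσ) ?_ (hfcd.mono hbs)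
      (fun a ha => (hfbd a (hbs ha)).trans hDσ)
    · exact ⟨hreg.cd, fun a ha i hi1 hi2 => (hreg.bd a ha i hi1 hi2).trans
        (pow_le_pow_left₀ (by positivity) hn1D i), fun a ha => (hreg.near a ha).trans hn1δ,
        hreg.fcd, hreg.fbd⟩
    · intro a ha
      have h1 := fderiv_osc (N := k + 1) (by omega) hcd hbd (hbs ha)
      have h2 : (L : (X × Y) →L[ℝ] E).comp (ContinuousLinearMap.inl ℝ X Y) =
          fderiv ℝ (σ z0) 0 := by
        ext a
        exact hL.1 a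
      rw [h2]
      have h3 := hc1 (x := x + L v) (lt_of_lt_of_le hz hρρ1)
      rw [dist_eq_norm] at h3
      have h4 : Dσ * ‖a‖ ≤ D * ρ := by
        rw [mem_ball_zero_iff] at ha
        refine mul_le_mul hDσ (ha.le.trans hRρ) (norm_nonneg _) (by linarith)
      calc ‖fderiv ℝ (σ (x + L v)) a - fderiv ℝ (σ z0) 0‖
          = ‖(fderiv ℝ (σ (x + L v)) a - fderiv ℝ (σ (x + L v)) 0) +
              (fderiv ℝ (σ (x + L v)) 0 - fderiv ℝ (σ z0) 0)‖ := by congr 1; abel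
        _ ≤ ‖fderiv ℝ (σ (x + L v)) a - fderiv ℝ (σ (x + L v)) 0‖ +
              ‖fderiv ℝ (σ (x + L v)) 0 - fderiv ℝ (σ z0) 0‖ := norm_add_le _ _
        _ ≤ δ / (2 * n1) + δ / (2 * n1) := by linarith
        _ = δ / n1 := by field_simp; norm_num
  · intro v hv
    have hz := hzin x hx v hv
    obtain ⟨h0, hcd, hbd, hfcd, hfbd⟩ := hτ' _ (ball_subset_ball hρτ hz)
    have hbs : ball (0 : Y) R ⊆ ball 0 Rτ := ball_subset_ball (hRρ.trans hρτ)
    refine ⟨by change L.symm (τ (x + L v) 0 - x) = v; rw [h0]; simp, ?_⟩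
    have hreg := leaf_transfer L (ContinuousLinearMap.inr ℝ X Y) (σ := τ (x + L v)) x (f := f)
      (N := k + 1) (D := D) (K := D) (R := R) (η := δ / n1) (hcd.mono hbs)
      (fun a ha i hi1 hi2 => (hbd a (hbs ha) i hi1 hi2).trans hDτ) ?_ (hfcd.mono hbs)
      (fun a ha => (hfbd a (hbs ha)).trans hDτ)
    · exact ⟨hreg.cd, fun a ha i hi1 hi2 => (hreg.bd a ha i hi1 hi2).trans
        (pow_le_pow_left₀ (by positivity) hn1D i), fun a ha => (hreg.near a ha).trans hn1δ,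
        hreg.fcd, hreg.fbd⟩
    · intro a ha
      have h1 := fderiv_osc (N := k + 1) (by omega) hcd hbd (hbs ha)
      have h2 : (L : (X × Y) →L[ℝ] E).comp (ContinuousLinearMap.inr ℝ X Y) =
          fderiv ℝ (τ z0) 0 := by
        ext a
        exact hL.2 a
      rw [h2]
      have h3 := hc2 (x := x + L v) (lt_of_lt_of_le hz hρρ2)
      rw [dist_eq_norm] at h3
      have h4 : Dτ * ‖a‖ ≤ D * ρ := by
        rw [mem_ball_zero_iff] at ha
        refine mul_le_mul hDτ (ha.le.trans hRρ) (norm_nonneg _) (by linarith)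
      calc ‖fderiv ℝ (τ (x + L v)) a - fderiv ℝ (τ z0) 0‖
          = ‖(fderiv ℝ (τ (x + L v)) a - fderiv ℝ (τ (x + L v)) 0) +
              (fderiv ℝ (τ (x + L v)) 0 - fderiv ℝ (τ z0) 0)‖ := by congr 1; abel
        _ ≤ ‖fderiv ℝ (τ (x + L v)) a - fderiv ℝ (τ (x + L v)) 0‖ +
              ‖fderiv ℝ (τ (x + L v)) 0 - fderiv ℝ (τ z0) 0‖ := norm_add_le _ _
        _ ≤ δ / (2 * n1) + δ / (2 * n1) := by linarith
        _ = δ / n1 := by field_simp; norm_num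
  · intro v hv
    exact hf' _ (ball_subset_ball hρf (hzin x hx v hv))

theorem LeafBd.clm {n : ℕ} {U : Set E} {f : E → W} {σ : E → X → E} {W' : Type}
    [NormedAddCommGroup W'] [NormedSpace ℝ W'] (h : LeafBd n U f σ) (l : W →L[ℝ] W') :
    LeafBd n U (fun z => l (f z)) σ := by
  intro z0 hz0
  obtain ⟨R, D, hR, hz⟩ := h z0 hz0
  refine ⟨R, (‖l‖ + 1) * |D|, hR, ?_⟩
  intro z hzR
  obtain ⟨h0, hcd, hbd, hfcd, hfbd⟩ := hz z hzR
  have hD : D ≤ (‖l‖ + 1) * |D| := by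
    nlinarith [le_abs_self D, norm_nonneg l, abs_nonneg D]
  refine ⟨h0, hcd, fun a ha i hi1 hi2 => (hbd a ha i hi1 hi2).trans hD,
    l.contDiff.comp_contDiffOn hfcd, ?_⟩
  intro a ha
  have h2 : iteratedFDeriv ℝ n (fun a => l (f (σ z a))) a =
      l.compContinuousMultilinearMap (iteratedFDeriv ℝ n (fun a => f (σ z a)) a) :=
    l.iteratedFDeriv_comp_left (hfcd.contDiffAt (isOpen_ball.mem_nhds ha)) le_rfl
  rw [h2]
  calc ‖l.compContinuousMultilinearMap (iteratedFDeriv ℝ n (fun a => f (σ z a)) a)‖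
      ≤ ‖l‖ * ‖iteratedFDeriv ℝ n (fun a => f (σ z a)) a‖ :=
        ContinuousLinearMap.norm_compContinuousMultilinearMap_le _ _
    _ ≤ ‖l‖ * |D| :=
        mul_le_mul_of_nonneg_left ((hfbd a ha).trans (le_abs_self D)) (norm_nonneg _)
    _ ≤ (‖l‖ + 1) * |D| := by nlinarith [abs_nonneg D]

/-- **Journe's lemma**: a locally bounded map with values in a finite dimensional space which is
uniformly of class `C^(k+2)` along two transverse families of leaves with continuous tangent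
planes is of class `C^k`. -/
theorem journe (k : ℕ) [FiniteDimensional ℝ E] [FiniteDimensional ℝ X]
    [FiniteDimensional ℝ Y] [FiniteDimensional ℝ W] {U : Set E} {f : E → W} {σ : E → X → E}
    {τ : E → Y → E} (hσ : LeafBd (k + 2) U f σ) (hτ : LeafBd (k + 2) U f τ)
    (hσc : ∀ z ∈ U, ContinuousAt (fun z => fderiv ℝ (σ z) 0) z)
    (hτc : ∀ z ∈ U, ContinuousAt (fun z => fderiv ℝ (τ z) 0) z)
    (hbij : ∀ z ∈ U, Function.Bijective
      (fun p : X × Y => fderiv ℝ (σ z) 0 p.1 + fderiv ℝ (τ z) 0 p.2))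
    (hf : ∀ z0 ∈ U, ∃ R M : ℝ, 0 < R ∧ ∀ z ∈ ball z0 R, ‖f z‖ ≤ M) :
    ∀ z ∈ U, ContDiffAt ℝ k f z := by
  intro z hz
  have e : W ≃L[ℝ] (Fin (Module.finrank ℝ W) → ℝ) := (Module.finBasis ℝ W).equivFunL
  have h1 : ContDiffAt ℝ k (fun z => e (f z)) z := by
    rw [contDiffAt_pi]
    intro i
    obtain ⟨l, hl⟩ : ∃ l : W →L[ℝ] ℝ, ∀ w, l w = e w i :=
      ⟨(ContinuousLinearMap.proj (R := ℝ) (φ := fun _ : Fin (Module.finrank ℝ W) => ℝ) i).comp
        (e : W →L[ℝ] (Fin (Module.finrank ℝ W) → ℝ)), fun _ => rfl⟩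
    simp only [← hl]
    refine journe_at k (hσ.clm l) (hτ.clm l) hz (hσc z hz) (hτc z hz) (hbij z hz) ?_
    obtain ⟨R, M, hR, hM⟩ := hf z hz
    refine ⟨R, ‖l‖ * M, hR, ?_⟩
    intro w hw
    rw [← Real.norm_eq_abs]
    exact (ContinuousLinearMap.le_opNorm _ _).trans
      (mul_le_mul_of_nonneg_left (hM w hw) (norm_nonneg _))
  have h4 : f = fun z => e.symm (e (f z)) := by
    funext z
    simp
  rw [h4]
  exact e.symm.contDiff.contDiffAt.comp z h1

/-- **Journe's lemma**, smooth version. -/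
theorem journe_infty [FiniteDimensional ℝ E] [FiniteDimensional ℝ X]
    [FiniteDimensional ℝ Y] [FiniteDimensional ℝ W] {U : Set E} {f : E → W} {σ : E → X → E}
    {τ : E → Y → E} (hσ : ∀ n : ℕ, LeafBd n U f σ) (hτ : ∀ n : ℕ, LeafBd n U f τ)
    (hσc : ∀ z ∈ U, ContinuousAt (fun z => fderiv ℝ (σ z) 0) z)
    (hτc : ∀ z ∈ U, ContinuousAt (fun z => fderiv ℝ (τ z) 0) z)
    (hbij : ∀ z ∈ U, Function.Bijective
      (fun p : X × Y => fderiv ℝ (σ z) 0 p.1 + fderiv ℝ (τ z) 0 p.2))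
    (hf : ∀ z0 ∈ U, ∃ R M : ℝ, 0 < R ∧ ∀ z ∈ ball z0 R, ‖f z‖ ≤ M) :
    ∀ z ∈ U, ContDiffAt ℝ (⊤ : ℕ∞) f z := by
  intro z hz
  rw [contDiffAt_infty]
  intro n
  exact journe n (hσ (n + 2)) (hτ (n + 2)) hσc hτc hbij hf z hz

omit [NormedSpace ℝ E] [NormedSpace ℝ W] in
/-- Continuous maps are locally bounded. -/
theorem locBdd_of_continuousAt {U : Set E} {f : E → W} (hf : ∀ z ∈ U, ContinuousAt f z) :
    ∀ z0 ∈ U, ∃ R M : ℝ, 0 < R ∧ ∀ z ∈ ball z0 R, ‖f z‖ ≤ M := by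
  intro z0 hz0
  obtain ⟨R, hR, h⟩ := Metric.continuousAt_iff.1 (hf z0 hz0) 1 one_pos
  refine ⟨R, ‖f z0‖ + 1, hR, ?_⟩
  intro z hz
  have h1 := h (x := z) hz
  rw [dist_eq_norm] at h1
  calc ‖f z‖ = ‖f z0 + (f z - f z0)‖ := by congr 1; abel
    _ ≤ ‖f z0‖ + ‖f z - f z0‖ := norm_add_le _ _
    _ ≤ ‖f z0‖ + 1 := by linarith

end Vale.Agent.P207.N3.H289
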