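import Vale.Agent.P207.N3.H289.Poly2

/-!
# Finite interpolation sets for polynomial maps (helper289, line N3, Journe's lemma)
-/

open Set Metric Filter Topology

namespace Vale.Agent.P207.N3.H289

open Vale.Agent.P214.TAYL

universe u

/-- The vector space of polynomial maps of degree at most `k`. -/
def polyW (k : ℕ) (E F : Type u) [NormedAddCommGroup E] [NormedSpace ℝ E]
    [NormedAddCommGroup F] [NormedSpace ℝ F] : Submodule ℝ (E → F) where
  carrier := {P | IsPoly k P}
  zero_mem' := isPoly_const k (0 : F)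
  add_mem' := fun hP hQ => isPoly_add hP hQ
  smul_mem' := fun c _ hP => isPoly_clm hP (c • ContinuousLinearMap.id ℝ F)

theorem polyW_finite (k : ℕ) (E F : Type u) [NormedAddCommGroup E] [NormedSpace ℝ E]
    [NormedAddCommGroup F] [NormedSpace ℝ F] [FiniteDimensional ℝ E] [FiniteDimensional ℝ F] :
    FiniteDimensional ℝ (polyW k E F) := by
  induction k generalizing F with
  | zero =>
    let T : polyW 0 E F →ₗ[ℝ] F :=
      { toFun := fun P => P.1 0
        map_add' := fun _ _ => rfl
        map_smul' := fun _ _ => rfl }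
    refine FiniteDimensional.of_injective T ?_
    intro P Q h
    obtain ⟨P, c, hc⟩ := P
    obtain ⟨Q, d, hd⟩ := Q
    subst hc
    subst hd
    have h1 : c = d := h
    subst h1
    rfl
  | succ k ih =>
    have := ih (E →L[ℝ] F)
    let T : polyW (k + 1) E F →ₗ[ℝ] F × polyW k E (E →L[ℝ] F) :=
      { toFun := fun P => (P.1 0, ⟨fderiv ℝ P.1, P.2.2⟩)
        map_add' := fun P Q => by
          refine Prod.ext rfl (Subtype.ext ?_)
          funext y
          exact fderiv_add (P.2.1 y) (Q.2.1 y)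
        map_smul' := fun c P => by
          refine Prod.ext rfl (Subtype.ext ?_)
          funext y
          exact fderiv_const_smul (P.2.1 y) c }
    refine FiniteDimensional.of_injective T ?_
    intro P Q h
    have h1 : P.1 0 = Q.1 0 := congrArg Prod.fst h
    have h2 : fderiv ℝ P.1 = fderiv ℝ Q.1 := congrArg (fun z => (Prod.snd z).1) h
    refine Subtype.ext (funext fun y => ?_)
    have h3 : ∀ z, fderiv ℝ (fun z => P.1 z - Q.1 z) z = 0 := by
      intro z
      rw [fderiv_fun_sub (P.2.1 z) (Q.2.1 z), h2, sub_self]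
    have h4 := is_const_of_fderiv_eq_zero (𝕜 := ℝ) (f := fun z => P.1 z - Q.1 z)
      (P.2.1.fun_sub Q.2.1) h3 y 0
    simp only [h1, sub_self] at h4
    exact sub_eq_zero.1 h4

/-- **Finite interpolation sets.** -/
theorem exists_nodes (k : ℕ) (Y : Type) [NormedAddCommGroup Y] [NormedSpace ℝ Y]
    [FiniteDimensional ℝ Y] : ∃ (S : Finset Y) (l : Y → Y → ℝ), (∀ t ∈ S, ‖t‖ ≤ 1) ∧
    (∀ t, IsPoly k (l t)) ∧ ∀ P : Y → ℝ, IsPoly k P → ∀ y, P y = ∑ t ∈ S, P t * l t y := by
  classical
  have := polyW_finite k Y ℝ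
  let W := polyW k Y ℝ
  let ev : Y → (W →ₗ[ℝ] ℝ) := fun t =>
    { toFun := fun P => P.1 t
      map_add' := fun _ _ => rfl
      map_smul' := fun _ _ => rfl }
  let K : {S : Finset Y // ∀ t ∈ S, ‖t‖ ≤ 1} → Submodule ℝ W := fun S =>
    S.1.inf fun t => LinearMap.ker (ev t)
  obtain ⟨S, hS⟩ : ∃ S, ∀ S', Module.finrank ℝ (K S) ≤ Module.finrank ℝ (K S') := by
    have : Nonempty {S : Finset Y // ∀ t ∈ S, ‖t‖ ≤ 1} := ⟨⟨∅, by simp⟩⟩
    exact ⟨Function.argmin (fun S => Module.finrank ℝ (K S)), fun S' =>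
      Function.argmin_le (fun S => Module.finrank ℝ (K S)) S'⟩
  have hK : ∀ P ∈ K S, P = 0 := by
    intro P hP
    have h1 : ∀ t : Y, ‖t‖ ≤ 1 → P.1 t = 0 := by
      intro t ht
      set S' : {S : Finset Y // ∀ t ∈ S, ‖t‖ ≤ 1} := ⟨insert t S.1, by
        intro s hs
        rcases Finset.mem_insert.1 hs with rfl | hs
        · exact ht
        · exact S.2 s hs⟩ with hS'
      have h2 : K S' ≤ K S := by
        change (insert t S.1).inf _ ≤ _
        rw [Finset.inf_insert]
        exact inf_le_right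
      have h3 : K S' = K S := Submodule.eq_of_le_of_finrank_le h2 (hS S')
      have h4 : K S ≤ LinearMap.ker (ev t) := by
        rw [← h3]
        change (insert t S.1).inf _ ≤ _
        rw [Finset.inf_insert]
        exact inf_le_left
      exact h4 hP
    have h5 := isPoly_eq_zero (x := (0 : Y)) P.2 (by
      filter_upwards [closedBall_mem_nhds (0 : Y) one_pos] with y hy
      exact h1 y (by simpa using hy))
    exact Subtype.ext (funext h5)
  let R : W →ₗ[ℝ] (S.1 → ℝ) := LinearMap.pi fun t => ev t.1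
  have hR : LinearMap.ker R = ⊥ := by
    rw [Submodule.eq_bot_iff]
    intro P hP
    refine hK P ?_
    change P ∈ S.1.inf fun t => LinearMap.ker (ev t)
    rw [Submodule.mem_finsetInf]
    intro t ht
    have h1 := congrFun (LinearMap.mem_ker.1 hP) ⟨t, ht⟩
    exact h1
  obtain ⟨L, hL⟩ := LinearMap.exists_leftInverse_of_injective R hR
  refine ⟨S.1, fun t => if ht : t ∈ S.1 then (L (Pi.single ⟨t, ht⟩ 1)).1 else fun _ => 0,
    S.2, ?_, ?_⟩
  · intro t
    by_cases ht : t ∈ S.1
    · simp only [ht, dif_pos]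
      exact (L (Pi.single ⟨t, ht⟩ 1)).2
    · simp only [ht, dif_neg, not_false_iff]
      exact isPoly_const k 0
  · intro P hP y
    have h1 : L (R ⟨P, hP⟩) = ⟨P, hP⟩ := by
      have := congrArg (fun T : W →ₗ[ℝ] W => T ⟨P, hP⟩) hL
      exact this
    have h2 : R ⟨P, hP⟩ = ∑ t : S.1, P t.1 • Pi.single t (1 : ℝ) := by
      funext s
      rw [Finset.sum_apply]
      simp only [Pi.smul_apply, Pi.single_apply, smul_eq_mul, mul_ite, mul_one, mul_zero]
      rw [Finset.sum_ite_eq]
      simp
      rfl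
    rw [h2, map_sum] at h1
    have h3 : P y = (∑ t : S.1, L (P t.1 • Pi.single t (1 : ℝ))).1 y := by
      rw [h1]
    rw [h3]
    rw [← Finset.sum_attach S.1]
    simp only [map_smul, Submodule.coe_sum, Finset.sum_apply, Submodule.coe_smul, Pi.smul_apply,
      smul_eq_mul]
    refine Finset.sum_congr rfl fun t _ => ?_
    simp [t.2]

end Vale.Agent.P207.N3.H289
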