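import Vale.Agent.P214.TAYL.Main

/-!
# Polynomial maps of bounded degree, more tools (helper289, line N3, Journe's lemma)
-/

open Set Metric Filter Topology

namespace Vale.Agent.P207.N3.H289

open Vale.Agent.P214.TAYL

universe u

variable {E : Type u} [NormedAddCommGroup E] [NormedSpace ℝ E]

theorem isPoly_const {F : Type u} [NormedAddCommGroup F] [NormedSpace ℝ F] (k : ℕ) (c : F) :
    IsPoly k (fun _ : E => c) := by
  induction k generalizing F with
  | zero => exact ⟨c, rfl⟩
  | succ k ih =>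
    refine ⟨differentiable_const c, ?_⟩
    have h1 : fderiv ℝ (fun _ : E => c) = fun _ => (0 : E →L[ℝ] F) := by
      funext y
      simp
    rw [h1]
    exact ih 0

theorem isPoly_add {k : ℕ} {F : Type u} [NormedAddCommGroup F] [NormedSpace ℝ F]
    {P Q : E → F} (hP : IsPoly k P) (hQ : IsPoly k Q) : IsPoly k (fun y => P y + Q y) := by
  have h1 := hP.sub ((isPoly_const k (0 : F)).sub hQ)
  have h2 : (fun y => P y - ((0 : F) - Q y)) = fun y => P y + Q y := by
    funext y
    abel
  rwa [h2] at h1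

theorem isPoly_clm : ∀ {k : ℕ} {F F' : Type u} [NormedAddCommGroup F] [NormedSpace ℝ F]
    [NormedAddCommGroup F'] [NormedSpace ℝ F'] {P : E → F} (_ : IsPoly k P) (A : F →L[ℝ] F'),
    IsPoly k (fun y => A (P y))
  | 0, _, _, _, _, _, _, _, ⟨c, hc⟩, A => ⟨A c, by subst hc; rfl⟩
  | k + 1, F, F', _, _, _, _, P, hP, A => by
    refine ⟨A.differentiable.comp hP.1, ?_⟩
    have h1 : fderiv ℝ (fun y => A (P y)) =
        fun y => (ContinuousLinearMap.compL ℝ E F F' A) (fderiv ℝ P y) := by
      funext y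
      exact (A.hasFDerivAt.comp y (hP.1 y).hasFDerivAt).fderiv
    rw [h1]
    exact isPoly_clm hP.2 _

theorem isPoly_comp_clm : ∀ {k : ℕ} {F G : Type u} [NormedAddCommGroup F] [NormedSpace ℝ F]
    [NormedAddCommGroup G] [NormedSpace ℝ G] {P : E → F} (_ : IsPoly k P) (L : G →L[ℝ] E)
    (c : E), IsPoly k (fun y : G => P (c + L y))
  | 0, _, _, _, _, _, _, _, ⟨c, hc⟩, L, d => ⟨c, by subst hc; rfl⟩
  | k + 1, F, G, _, _, _, _, P, hP, L, d => by
    have hA : ∀ y : G, HasFDerivAt (fun y : G => d + L y) L y := fun y =>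
      L.hasFDerivAt.const_add d
    have hd : ∀ y : G, HasFDerivAt (fun y : G => P (d + L y)) ((fderiv ℝ P (d + L y)).comp L) y :=
      fun y => (hP.1 (d + L y)).hasFDerivAt.comp y (hA y)
    refine ⟨fun y => (hd y).differentiableAt, ?_⟩
    have h1 : fderiv ℝ (fun y : G => P (d + L y)) =
        fun y => ((ContinuousLinearMap.compL ℝ G E F).flip L) (fderiv ℝ P (d + L y)) := by
      funext y
      rw [(hd y).fderiv]
      rfl
    rw [h1]
    exact isPoly_clm (isPoly_comp_clm hP.2 L d) _

theorem isPoly_mono {F : Type u} [NormedAddCommGroup F] [NormedSpace ℝ F] {k l : ℕ}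
    (hkl : k ≤ l) {P : E → F} (hP : IsPoly k P) : IsPoly l P := by
  induction l generalizing F k with
  | zero =>
    obtain rfl : k = 0 := by omega
    exact hP
  | succ l ih =>
    cases k with
    | zero =>
      obtain ⟨c, rfl⟩ := hP
      exact isPoly_const _ c
    | succ k => exact ⟨hP.1, ih (by omega) hP.2⟩

theorem isPoly_sum {F : Type u} [NormedAddCommGroup F] [NormedSpace ℝ F] {k : ℕ} {ι : Type*}
    (s : Finset ι) {P : ι → E → F} (hP : ∀ i ∈ s, IsPoly k (P i)) :
    IsPoly k (fun y => ∑ i ∈ s, P i y) := by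
  classical
  induction s using Finset.induction_on with
  | empty => simpa using isPoly_const k (0 : F)
  | insert a s ha ih =>
    have h1 : (fun y => ∑ i ∈ insert a s, P i y) = fun y => P a y + ∑ i ∈ s, P i y := by
      funext y
      rw [Finset.sum_insert ha]
    rw [h1]
    exact isPoly_add (hP a (Finset.mem_insert_self a s))
      (ih fun i hi => hP i (Finset.mem_insert_of_mem hi))

theorem isPoly_contDiff {F : Type u} [NormedAddCommGroup F] [NormedSpace ℝ F] {k : ℕ}
    {P : E → F} (hP : IsPoly k P) (n : ℕ) : ContDiff ℝ n P := by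
  induction k generalizing F n with
  | zero =>
    obtain ⟨c, rfl⟩ := hP
    exact contDiff_const
  | succ k ih =>
    cases n with
    | zero =>
      rw [Nat.cast_zero, contDiff_zero]
      exact hP.1.continuous
    | succ n =>
      push_cast
      rw [contDiff_succ_iff_fderiv]
      exact ⟨hP.1, by simp, ih hP.2 n⟩

theorem isPoly_iteratedFDeriv_eq_zero {F : Type u} [NormedAddCommGroup F] [NormedSpace ℝ F]
    {k : ℕ} {P : E → F} (hP : IsPoly k P) {i : ℕ} (hi : k < i) (y : E) :
    iteratedFDeriv ℝ i P y = 0 := by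
  induction k generalizing F i with
  | zero =>
    obtain ⟨c, rfl⟩ := hP
    rw [iteratedFDeriv_const_of_ne (by omega)]
    rfl
  | succ k ih =>
    cases i with
    | zero => omega
    | succ i =>
      have h1 := norm_iteratedFDeriv_fderiv (𝕜 := ℝ) (f := P) (x := y) (n := i)
      rw [ih hP.2 (by omega), norm_zero] at h1
      exact norm_eq_zero.1 h1.symm

/-- A polynomial map vanishing near a point vanishes identically. -/
theorem isPoly_eq_zero {F : Type u} [NormedAddCommGroup F] [NormedSpace ℝ F] {k : ℕ}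
    {P : E → F} (hP : IsPoly k P) {x : E} (h : ∀ᶠ y in 𝓝 x, P y = 0) : ∀ y, P y = 0 := by
  induction k generalizing F with
  | zero =>
    obtain ⟨c, rfl⟩ := hP
    exact fun _ => h.self_of_nhds
  | succ k ih =>
    have h1 : ∀ᶠ y in 𝓝 x, fderiv ℝ P y = 0 := by
      have h2 : P =ᶠ[𝓝 x] fun _ => (0 : F) := h
      have h3 := h2.fderiv (𝕜 := ℝ)
      filter_upwards [h3] with y hy
      rw [hy]
      simp
    have h4 := ih hP.2 h1
    intro y
    rw [is_const_of_fderiv_eq_zero hP.1 h4 y x]
    exact h.self_of_nhds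

/-- Markov inequality for all derivatives. -/
theorem markov_all (k i : ℕ) : ∃ C : ℝ, 0 < C ∧ ∀ {F : Type u} [NormedAddCommGroup F]
    [NormedSpace ℝ F] (P : E → F), IsPoly k P → ∀ (y : E) (ρ M : ℝ), 0 < ρ →
    (∀ z, ‖z - y‖ ≤ ρ → ‖P z‖ ≤ M) → ‖iteratedFDeriv ℝ i P y‖ ≤ C * M / ρ ^ i := by
  induction i generalizing k with
  | zero =>
    refine ⟨1, one_pos, ?_⟩
    intro F _ _ P _ y ρ M hρ hM
    rw [norm_iteratedFDeriv_zero, pow_zero, div_one, one_mul]
    exact hM y (by simpa using hρ.le)
  | succ i ih =>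
    cases k with
    | zero =>
      refine ⟨1, one_pos, ?_⟩
      intro F _ _ P hP y ρ M hρ hM
      rw [isPoly_iteratedFDeriv_eq_zero hP (by omega), norm_zero]
      have : 0 ≤ M := le_trans (norm_nonneg _) (hM y (by simpa using hρ.le))
      positivity
    | succ k =>
      obtain ⟨C1, hC1, h1⟩ := markov (E := E) (k + 1)
      obtain ⟨C2, hC2, h2⟩ := ih k
      refine ⟨C2 * (C1 * 2) * 2 ^ i, by positivity, ?_⟩
      intro F _ _ P hP y ρ M hρ hM
      rw [← norm_iteratedFDeriv_fderiv]
      have h3 := h2 (fderiv ℝ P) hP.2 y (ρ / 2) (C1 * M / (ρ / 2)) (by positivity) (by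
        intro z hz
        refine h1 P hP z (ρ / 2) M (by positivity) ?_
        intro w hw
        refine hM w ?_
        calc ‖w - y‖ = ‖(w - z) + (z - y)‖ := by congr 1; abel
          _ ≤ ‖w - z‖ + ‖z - y‖ := norm_add_le _ _
          _ ≤ ρ / 2 + ρ / 2 := add_le_add hw hz
          _ = ρ := by ring)
      refine h3.trans (le_of_eq ?_)
      rw [div_pow]
      field_simp
      ring

end Vale.Agent.P207.N3.H289
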