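import Vale.Agent.P207.N3.H289.Int

/-!
# The recursion over scales (helper289, line N3, Journe's lemma)
-/

open Set Metric Filter Topology

namespace Vale.Agent.P207.N3.H289

open Vale.Agent.P214.TAYL

/-- Regularity of one leaf and of the function along it. -/
structure LeafReg {X V : Type} [NormedAddCommGroup X] [NormedSpace ℝ X] [NormedAddCommGroup V]
    [NormedSpace ℝ V] (N : ℕ) (F : V → ℝ) (σ : X → V) (L : X →L[ℝ] V) (δ D K R : ℝ) : Prop where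
  cd : ContDiffOn ℝ (N + 1 : ℕ) σ (ball 0 R)
  bd : ∀ a ∈ ball (0 : X) R, ∀ i, 1 ≤ i → i ≤ N + 1 → ‖iteratedFDeriv ℝ i σ a‖ ≤ D ^ i
  near : ∀ a ∈ ball (0 : X) R, ‖fderiv ℝ σ a - L‖ ≤ δ
  fcd : ContDiffOn ℝ (N + 1 : ℕ) (fun a => F (σ a)) (ball 0 R)
  fbd : ∀ a ∈ ball (0 : X) R, ‖iteratedFDeriv ℝ (N + 1) (fun a => F (σ a)) a‖ ≤ K

variable {X V : Type} [NormedAddCommGroup X] [NormedSpace ℝ X] [NormedAddCommGroup V]
    [NormedSpace ℝ V]

theorem LeafReg.near' {N : ℕ} {F : V → ℝ} {σ : X → V} {L : X →L[ℝ] V} {δ D K R : ℝ}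
    (h : LeafReg N F σ L δ D K R) {ρ : ℝ} (hρ : ρ < R) : Near σ L δ ρ := by
  intro a a' ha ha'
  have h1 := (convex_ball (0 : X) R).norm_image_sub_le_of_norm_fderiv_le' (𝕜 := ℝ) (f := σ)
    (φ := L) (C := δ) (x := a') (y := a) (fun x hx => ?_) h.near ?_ ?_
  · exact h1
  · exact ((h.cd.contDiffAt (isOpen_ball.mem_nhds hx)).differentiableAt (by simp))
  · rw [mem_ball_zero_iff]
    exact ha'.trans_lt hρ
  · rw [mem_ball_zero_iff]
    exact ha.trans_lt hρ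

/-- Leafwise Taylor polynomial of `F - P`. -/
theorem LeafReg.poly {N : ℕ} {F : V → ℝ} {σ : X → V} {L : X →L[ℝ] V} {δ D K R : ℝ}
    (h : LeafReg N F σ L δ D K R) {r A : ℝ} (hr : 0 < r) (hrR : 3 * r < R) {P : V → ℝ}
    (hP : IsPoly N P) (hA : ∀ j, j ≤ N + 1 → ∀ y, ‖y‖ ≤ 5 * r → ‖iteratedFDeriv ℝ j P y‖ ≤ A)
    (hin : ∀ a, ‖a‖ ≤ 3 * r → ‖σ a‖ ≤ 5 * r) :
    ∃ p : X → ℝ, IsPoly N p ∧ ∀ a, ‖a‖ ≤ 3 * r → |(F (σ a) - P (σ a)) - p a| ≤
      (K + (N + 1).factorial * A * D ^ (N + 1)) * (3 * r) ^ (N + 1) := by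
  have hmem : ∀ a : X, ‖a - 0‖ ≤ 3 * r → a ∈ ball (0 : X) R := by
    intro a ha
    rw [mem_ball_zero_iff]
    rw [sub_zero] at ha
    exact ha.trans_lt hrR
  have hPc : ContDiff ℝ (N + 1 : ℕ) P := isPoly_contDiff hP (N + 1)
  have hPσ : ContDiffOn ℝ (N + 1 : ℕ) (P ∘ σ) (ball 0 R) := hPc.comp_contDiffOn h.cd
  have h1 := exists_poly_of_contDiffAt (F := ℝ) N (v := fun a => F (σ a) - P (σ a)) (x := 0)
    (r := 3 * r) (B := K + (N + 1).factorial * A * D ^ (N + 1)) (by positivity) ?_ ?_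
  · obtain ⟨p, hp, hp2⟩ := h1
    exact ⟨p, hp, fun a ha => hp2 a (by rwa [sub_zero])⟩
  · intro a ha
    exact_mod_cast (h.fcd.contDiffAt (isOpen_ball.mem_nhds (hmem a ha))).sub
      (hPσ.contDiffAt (isOpen_ball.mem_nhds (hmem a ha)))
  · intro a ha
    have h2 : ContDiffAt ℝ (N + 1 : ℕ) (fun a => F (σ a)) a :=
      h.fcd.contDiffAt (isOpen_ball.mem_nhds (hmem a ha))
    have h3 : ContDiffAt ℝ (N + 1 : ℕ) (P ∘ σ) a :=
      hPσ.contDiffAt (isOpen_ball.mem_nhds (hmem a ha))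
    have h4 : iteratedFDeriv ℝ (N + 1) (fun a => F (σ a) - P (σ a)) a =
        iteratedFDeriv ℝ (N + 1) (fun a => F (σ a)) a - iteratedFDeriv ℝ (N + 1) (P ∘ σ) a :=
      iteratedFDeriv_sub_apply h2 h3
    rw [h4]
    refine (norm_sub_le _ _).trans (add_le_add (h.fbd a (hmem a ha)) ?_)
    have h5 := norm_iteratedFDerivWithin_comp_le (𝕜 := ℝ) (g := P) (f := σ) (n := N + 1)
      (s := ball (0 : X) R) (t := univ) (x := a) (N := (N + 1 : ℕ)) hPc.contDiffOn h.cd le_rfl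
      uniqueDiffOn_univ isOpen_ball.uniqueDiffOn (mapsTo_univ _ _) (hmem a ha) (C := A) (D := D)
      ?_ ?_
    · rwa [iteratedFDerivWithin_of_isOpen (N + 1) isOpen_ball (hmem a ha)] at h5
    · intro i hi
      rw [iteratedFDerivWithin_univ]
      exact hA i hi _ (hin a (by rwa [sub_zero] at ha))
    · intro i hi1 hi2
      rw [iteratedFDerivWithin_of_isOpen i isOpen_ball (hmem a ha)]
      exact h.bd a (hmem a ha) i hi1 hi2

theorem markov_top (N : ℕ) (V : Type) [NormedAddCommGroup V] [NormedSpace ℝ V] :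
    ∃ C : ℝ, 0 < C ∧ ∀ (P : V → ℝ), IsPoly N P → ∀ (r M : ℝ), 0 < r → r ≤ 1 →
      (∀ y, ‖y‖ ≤ 10 * r → |P y| ≤ M) → ∀ j, j ≤ N + 1 → ∀ y, ‖y‖ ≤ 5 * r →
      ‖iteratedFDeriv ℝ j P y‖ ≤ C * M / r ^ N := by
  choose Cm hCm hm using fun i => markov_all (E := V) N i
  obtain ⟨C2, hC2⟩ : ∃ C2 : ℝ, C2 = ∑ i ∈ Finset.range (N + 2), Cm i := ⟨_, rfl⟩
  have hC2le : ∀ i, i ≤ N + 1 → Cm i ≤ C2 := fun i hi => by
    rw [hC2]
    exact Finset.single_le_sum (f := fun i => Cm i) (fun i _ => (hCm i).le)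
      (Finset.mem_range.2 (by omega))
  have hC20 : 0 < C2 := (hCm 0).trans_le (hC2le 0 (by omega))
  refine ⟨C2, hC20, ?_⟩
  intro P hP r M hr hr1 hM j hj y hy
  have hM0 : 0 ≤ M := (abs_nonneg _).trans (hM 0 (by rw [norm_zero]; positivity))
  rcases Nat.lt_or_ge N j with hNj | hjN
  · rw [isPoly_iteratedFDeriv_eq_zero hP hNj, norm_zero]
    positivity
  · have h1 := hm j P hP y r M hr (by
      intro z hz
      refine hM z ?_
      calc ‖z‖ = ‖(z - y) + y‖ := by congr 1; abel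
        _ ≤ ‖z - y‖ + ‖y‖ := norm_add_le _ _
        _ ≤ 10 * r := by linarith)
    refine h1.trans ?_
    have h2 : r ^ N ≤ r ^ j := pow_le_pow_of_le_one hr.le hr1 hjN
    have h3 := hC2le j hj
    exact div_le_div₀ (by positivity) (mul_le_mul_of_nonneg_right h3 hM0) (by positivity) h2

theorem exists_theta (N : ℕ) {C : ℝ} (hC : 0 < C) : ∃ t : ℝ, 0 < t ∧ t ≤ 1 / 4 ∧
    C * (t ^ (2 * N + 1) / (6 * C) + t ^ (2 * N + 1) / (6 * C) + 2 * (10 * t ^ 2) ^ (N + 1)) ≤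
      t ^ (2 * N + 1) := by
  obtain ⟨t, ht⟩ : ∃ t : ℝ, t = min (1 / 4) (1 / (3 * C * 10 ^ (N + 1))) := ⟨_, rfl⟩
  have ht0 : 0 < t := by
    rw [ht]
    exact lt_min (by norm_num) (by positivity)
  have ht1 : t ≤ 1 / 4 := by
    rw [ht]
    exact min_le_left _ _
  have ht2 : t ≤ 1 / (3 * C * 10 ^ (N + 1)) := by
    rw [ht]
    exact min_le_right _ _
  refine ⟨t, ht0, ht1, ?_⟩
  have h1 : C * 10 ^ (N + 1) * t ≤ 1 / 3 := by
    calc C * 10 ^ (N + 1) * t ≤ C * 10 ^ (N + 1) * (1 / (3 * C * 10 ^ (N + 1))) :=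
          mul_le_mul_of_nonneg_left ht2 (by positivity)
      _ = 1 / 3 := by field_simp
  have h2 : (10 * t ^ 2) ^ (N + 1) = 10 ^ (N + 1) * t * t ^ (2 * N + 1) := by
    rw [mul_pow]
    ring
  rw [h2]
  have h3 : C * (t ^ (2 * N + 1) / (6 * C) + t ^ (2 * N + 1) / (6 * C) +
      2 * (10 ^ (N + 1) * t * t ^ (2 * N + 1))) =
      t ^ (2 * N + 1) * (1 / 3 + 2 * (C * 10 ^ (N + 1) * t)) := by
    field_simp
    ring
  rw [h3]
  calc t ^ (2 * N + 1) * (1 / 3 + 2 * (C * 10 ^ (N + 1) * t)) ≤ t ^ (2 * N + 1) * 1 :=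
        mul_le_mul_of_nonneg_left (by linarith) (by positivity)
    _ = t ^ (2 * N + 1) := mul_one _

end Vale.Agent.P207.N3.H289
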