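import Vale.Agent.P207.N3.H289.Rec

/-!
# The recursion over scales, second part (helper289, line N3, Journe's lemma)
-/

open Set Metric Filter Topology

namespace Vale.Agent.P207.N3.H289

open Vale.Agent.P214.TAYL

/-- Both leaves through every point of the ball of radius `R` are regular. -/
def LeafHyp {X Y : Type} [NormedAddCommGroup X] [NormedSpace ℝ X] [NormedAddCommGroup Y]
    [NormedSpace ℝ Y] (N : ℕ) (F : X × Y → ℝ) (σ : X × Y → X → X × Y) (τ : X × Y → Y → X × Y)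
    (δ D K R : ℝ) : Prop :=
  (∀ z, ‖z‖ ≤ R → σ z 0 = z ∧ LeafReg N F (σ z) (ContinuousLinearMap.inl ℝ X Y) δ D K R) ∧
  ∀ z, ‖z‖ ≤ R → τ z 0 = z ∧ LeafReg N F (τ z) (ContinuousLinearMap.inr ℝ X Y) δ D K R

theorem rec_step (N : ℕ) (X Y : Type) [NormedAddCommGroup X] [NormedSpace ℝ X]
    [FiniteDimensional ℝ X] [NormedAddCommGroup Y] [NormedSpace ℝ Y] [FiniteDimensional ℝ Y] :
    ∃ C C4 : ℝ, 0 < C ∧ 0 < C4 ∧ ∀ (F : X × Y → ℝ) (σ : X × Y → X → X × Y)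
      (τ : X × Y → Y → X × Y) (δ D K R A q t η B : ℝ), 0 ≤ δ → δ ≤ 1 / 12 → δ ≤ η → η ≤ 1 →
      0 ≤ D → 0 ≤ K → K ≤ A → LeafHyp N F σ τ δ D K R → 0 < q → q ≤ 1 → 10 * q ^ 2 < R →
      0 < t → t ≤ 1 / 4 → C * (η + η + 2 * (10 * t ^ 2) ^ (N + 1)) ≤ t ^ (2 * N + 1) →
      (1 + (N + 1).factorial * D ^ (N + 1)) * 3 ^ (N + 1) * q ≤ η →
      B ≤ A → ∀ P : X × Y → ℝ, IsPoly N P →
      (∀ y, ‖y‖ ≤ 10 * q ^ 2 → |F y - P y| ≤ A * q ^ (2 * N + 1)) →
      (∀ j, j ≤ N + 1 → ∀ y, ‖y‖ ≤ 5 * q ^ 2 → ‖iteratedFDeriv ℝ j P y‖ ≤ B) →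
      ∃ P' : X × Y → ℝ, IsPoly N P' ∧
      (∀ y, ‖y‖ ≤ 10 * (t * q) ^ 2 → |F y - P' y| ≤ A * (t * q) ^ (2 * N + 1)) ∧
      (∀ j, j ≤ N + 1 → ∀ y, ‖y‖ ≤ 5 * (t * q) ^ 2 → ‖iteratedFDeriv ℝ j P' y‖ ≤
        B + 2 * C4 * A * q / t ^ (2 * N)) := by
  obtain ⟨C, hC, hI⟩ := int_step N X Y
  obtain ⟨C4, hC4, h4⟩ := markov_top N (X × Y)
  refine ⟨C, C4, hC, hC4, ?_⟩
  intro F σ τ δ D K R A q t η B hδ0 hδ hδη hη hD hK hKA hL hq hq1 hqR ht ht1 hstep hE hBA P hP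
    hPF hPd
  have hA0 : 0 ≤ A := hK.trans hKA
  obtain ⟨G, hG⟩ : ∃ G : ℝ, G = A * q ^ (2 * N + 1) := ⟨_, rfl⟩
  have hG0 : 0 ≤ G := by rw [hG]; positivity
  obtain ⟨ε, hε⟩ : ∃ ε : ℝ, ε = (K + (N + 1).factorial * A * D ^ (N + 1)) *
    (3 * q ^ 2) ^ (N + 1) := ⟨_, rfl⟩
  have hε0 : 0 ≤ ε := by rw [hε]; positivity
  have hεG : ε ≤ η * G := by
    have h1 : ε ≤ (A + (N + 1).factorial * A * D ^ (N + 1)) * (3 * q ^ 2) ^ (N + 1) := by
      rw [hε]
      gcongr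
    refine h1.trans ?_
    have h2 : (A + (N + 1).factorial * A * D ^ (N + 1)) * (3 * q ^ 2) ^ (N + 1) =
        ((1 + (N + 1).factorial * D ^ (N + 1)) * 3 ^ (N + 1) * q) * G := by
      rw [hG, mul_pow]
      ring
    rw [h2]
    exact mul_le_mul_of_nonneg_right hE hG0
  have hεG' : ε ≤ G := hεG.trans (by nlinarith)
  have hq2 : 0 < q ^ 2 := by positivity
  have hq21 : q ^ 2 ≤ 1 := pow_le_one₀ hq.le hq1
  have h3R : 3 * q ^ 2 < R := by linarith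
  have hrR : q ^ 2 ≤ R := by linarith
  have ht16 : t ^ 2 ≤ 1 / 16 := by nlinarith
  have htq : 10 * (t * q) ^ 2 ≤ 10 * q ^ 2 := by
    rw [mul_pow]
    nlinarith
  obtain ⟨Q, hQ, hQ2⟩ := hI (fun y => F y - P y) σ τ (q ^ 2) (10 * t ^ 2) G ε δ hq2
    (by positivity) (by linarith) hδ0 hδ hε0
    (by
      intro z hz
      rw [hG]
      exact hPF z (by linarith))
    (by
      intro z hz
      obtain ⟨h0, hreg⟩ := hL.1 z (hz.trans hrR)
      have hnear := hreg.near' h3R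
      refine ⟨h0, hnear, ?_⟩
      obtain ⟨p, hp, hp2⟩ := hreg.poly (A := A) hq2 h3R hP
        (fun j hj y hy => (hPd j hj y hy).trans hBA)
        (fun a ha => near_le hq2 hδ norm_inl_eq hnear hz h0 ha)
      exact ⟨p, hp, fun a ha => by rw [hε]; exact hp2 a ha⟩)
    (by
      intro z hz
      obtain ⟨h0, hreg⟩ := hL.2 z (hz.trans hrR)
      have hnear := hreg.near' h3R
      refine ⟨h0, hnear, ?_⟩
      obtain ⟨p, hp, hp2⟩ := hreg.poly (A := A) hq2 h3R hP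
        (fun j hj y hy => (hPd j hj y hy).trans hBA)
        (fun a ha => near_le hq2 hδ norm_inr_eq hnear hz h0 ha)
      exact ⟨p, hp, fun a ha => by rw [hε]; exact hp2 a ha⟩)
  have hG' : C * (ε + δ * G + (G + ε) * (10 * t ^ 2) ^ (N + 1)) ≤
      A * (t * q) ^ (2 * N + 1) := by
    have h1 : ε + δ * G + (G + ε) * (10 * t ^ 2) ^ (N + 1) ≤
        G * (η + η + 2 * (10 * t ^ 2) ^ (N + 1)) := by
      have h2 : δ * G ≤ η * G := mul_le_mul_of_nonneg_right hδη hG0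
      have h3 : (G + ε) * (10 * t ^ 2) ^ (N + 1) ≤ (2 * G) * (10 * t ^ 2) ^ (N + 1) :=
        mul_le_mul_of_nonneg_right (by linarith) (by positivity)
      nlinarith
    calc C * (ε + δ * G + (G + ε) * (10 * t ^ 2) ^ (N + 1))
        ≤ C * (G * (η + η + 2 * (10 * t ^ 2) ^ (N + 1))) := mul_le_mul_of_nonneg_left h1 hC.le
      _ = G * (C * (η + η + 2 * (10 * t ^ 2) ^ (N + 1))) := by ring
      _ ≤ G * t ^ (2 * N + 1) := mul_le_mul_of_nonneg_left hstep hG0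
      _ = A * (t * q) ^ (2 * N + 1) := by rw [hG, mul_pow]; ring
  have hrad : 10 * t ^ 2 * q ^ 2 = 10 * (t * q) ^ 2 := by ring
  rw [hrad] at hQ2
  have hGG : A * (t * q) ^ (2 * N + 1) ≤ G := by
    rw [hG]
    have h1 : t * q ≤ q := by nlinarith
    gcongr
  refine ⟨fun y => P y + Q y, isPoly_add hP hQ, ?_, ?_⟩
  · intro y hy
    have h1 := (hQ2 y hy).trans hG'
    have h2 : F y - (P y + Q y) = F y - P y - Q y := by ring
    rw [h2]
    exact h1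
  · intro j hj y hy
    have htq0 : 0 < t * q := by positivity
    have hQb : ∀ y, ‖y‖ ≤ 10 * (t * q) ^ 2 → |Q y| ≤ 2 * G := by
      intro y hy
      have h1 := ((hQ2 y hy).trans hG').trans hGG
      have h2 := hPF y (hy.trans htq)
      rw [← hG] at h2
      rw [abs_le] at h1 h2 ⊢
      obtain ⟨h1a, h1b⟩ := h1
      obtain ⟨h2a, h2b⟩ := h2
      constructor <;> linarith
    have h5 := h4 Q hQ ((t * q) ^ 2) (2 * G) (by positivity)
      (pow_le_one₀ htq0.le (by nlinarith)) hQb j hj y hy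
    have h6 : C4 * (2 * G) / ((t * q) ^ 2) ^ N = 2 * C4 * A * q / t ^ (2 * N) := by
      rw [hG, ← pow_mul, mul_pow]
      field_simp
      ring
    rw [h6] at h5
    have h7 : iteratedFDeriv ℝ j (fun y => P y + Q y) y =
        iteratedFDeriv ℝ j P y + iteratedFDeriv ℝ j Q y :=
      iteratedFDeriv_add_apply (isPoly_contDiff hP j).contDiffAt
        (isPoly_contDiff hQ j).contDiffAt
    rw [h7]
    refine (norm_add_le _ _).trans (add_le_add (hPd j hj y ?_) h5)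
    linarith

/-- From polynomials at the scales `(t ^ i * q) ^ 2` to all scales. -/
theorem approx_of_scales {V : Type} [NormedAddCommGroup V] [NormedSpace ℝ V] {k N : ℕ}
    (hN : N = k + 1) {F : V → ℝ} {A q t : ℝ} (hq0 : 0 < q) (hq1 : q ≤ 1) (ht : 0 < t)
    (ht4 : t ≤ 1 / 4) (hA0 : 0 ≤ A)
    (hrec : ∀ i : ℕ, ∃ P : V → ℝ, IsPoly N P ∧
      (∀ y, ‖y‖ ≤ 10 * (t ^ i * q) ^ 2 → |F y - P y| ≤ A * (t ^ i * q) ^ (2 * N + 1)) ∧
      (∀ j, j ≤ N + 1 → ∀ y, ‖y‖ ≤ 5 * (t ^ i * q) ^ 2 → ‖iteratedFDeriv ℝ j P y‖ ≤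
        A * (1 - t ^ i))) :
    Approx k F (A * (1 + 1 / t ^ (2 * N))) (q ^ 2) 0 := by
  intro r hr hrq
  have hq2 : 0 < q ^ 2 := by positivity
  have ht2 : 0 < t ^ 2 := by positivity
  have ht21 : t ^ 2 < 1 := by nlinarith
  obtain ⟨i, hi1, hi2⟩ := exists_nat_pow_near_of_lt_one (x := r / q ^ 2) (y := t ^ 2)
    (by positivity) ((div_le_one hq2).2 hrq) ht2 ht21
  obtain ⟨P, hP, hPF, hPd⟩ := hrec i
  have hti1 : t ^ i ≤ 1 := pow_le_one₀ ht.le (by linarith)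
  have hti0 : 0 < t ^ i := by positivity
  obtain ⟨s, hs⟩ : ∃ s : ℝ, s = t ^ i * q := ⟨_, rfl⟩
  rw [← hs] at hPF hPd
  have hri : r ≤ s ^ 2 := by
    rw [div_le_iff₀ hq2] at hi2
    calc r ≤ (t ^ 2) ^ i * q ^ 2 := hi2
      _ = s ^ 2 := by rw [hs]; ring
  have hri2 : (t * s) ^ 2 ≤ r := by
    rw [lt_div_iff₀ hq2] at hi1
    calc (t * s) ^ 2 = (t ^ 2) ^ (i + 1) * q ^ 2 := by rw [hs]; ring
      _ ≤ r := hi1.le
  have hqi0 : 0 < s := by rw [hs]; positivity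
  have hqi1 : s ≤ 1 := by
    rw [hs]
    exact mul_le_one₀ hti1 hq0.le hq1
  have hs2 : 0 ≤ s ^ 2 := by positivity
  have hAt : A * (1 - t ^ i) ≤ A := by
    calc A * (1 - t ^ i) ≤ A * 1 := mul_le_mul_of_nonneg_left (by linarith) hA0
      _ = A := mul_one A
  obtain ⟨Q, hQ, hQ2⟩ := exists_poly_of_contDiffAt (F := ℝ) k (v := P) (x := 0) (r := r)
    (B := A) hr.le (fun y _ => by exact_mod_cast (isPoly_contDiff hP (k + 1)).contDiffAt)
    (fun y hy => by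
      rw [sub_zero] at hy
      exact (hPd (k + 1) (by omega) y (by linarith)).trans hAt)
  refine ⟨Q, hQ, ?_⟩
  intro y hy
  have h1 := hQ2 y hy
  rw [sub_zero] at hy
  have h2 := hPF y (by linarith)
  have h3 : A * s ^ (2 * N + 1) ≤ A * (1 / t ^ (2 * N)) * r ^ N := by
    have h4 : s ^ (2 * N + 1) ≤ s ^ (2 * N) :=
      pow_le_pow_of_le_one hqi0.le hqi1 (by omega)
    have h5 : t ^ (2 * N) * s ^ (2 * N) ≤ r ^ N := by
      calc t ^ (2 * N) * s ^ (2 * N) = ((t * s) ^ 2) ^ N := by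
            rw [← pow_mul, mul_pow t s]
        _ ≤ r ^ N := pow_le_pow_left₀ (by positivity) hri2 N
    have h6 : s ^ (2 * N) ≤ 1 / t ^ (2 * N) * r ^ N := by
      rw [one_div, le_inv_mul_iff₀ (by positivity)]
      exact h5
    calc A * s ^ (2 * N + 1) ≤ A * (1 / t ^ (2 * N) * r ^ N) :=
          mul_le_mul_of_nonneg_left (h4.trans h6) hA0
      _ = A * (1 / t ^ (2 * N)) * r ^ N := by ring
  rw [← hN] at h1
  have h7 : F y - Q y = (F y - P y) + (P y - Q y) := by ring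
  rw [h7, Real.norm_eq_abs]
  rw [Real.norm_eq_abs] at h1
  refine (abs_add_le _ _).trans ((add_le_add (h2.trans h3) h1).trans (le_of_eq ?_))
  rw [← hN]
  ring

/-- Choice of the constants. -/
theorem exists_consts (N : ℕ) {C C4 : ℝ} (hC : 0 < C) (hC4 : 0 < C4) : ∃ t η : ℝ, 0 < t ∧
    t ≤ 1 / 4 ∧ 0 < η ∧ η ≤ 1 / 12 ∧
    C * (η + η + 2 * (10 * t ^ 2) ^ (N + 1)) ≤ t ^ (2 * N + 1) ∧
    ∀ E1 R : ℝ, 0 < E1 → 0 < R → ∃ q : ℝ, 0 < q ∧ q ≤ 1 ∧ E1 * q ≤ η ∧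
      2 * C4 * q / t ^ (2 * N) ≤ 1 / 2 ∧ ∀ s : ℝ, 0 < s → s ≤ q → 10 * s ^ 2 < R := by
  obtain ⟨t, ht, ht4, htC⟩ := exists_theta N hC
  obtain ⟨η, hη⟩ : ∃ η : ℝ, η = min (1 / 12) (t ^ (2 * N + 1) / (6 * C)) := ⟨_, rfl⟩
  have hη0 : 0 < η := by
    rw [hη]
    exact lt_min (by norm_num) (by positivity)
  have hη12 : η ≤ 1 / 12 := by
    rw [hη]
    exact min_le_left _ _
  have hηt : η ≤ t ^ (2 * N + 1) / (6 * C) := by
    rw [hη]
    exact min_le_right _ _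
  refine ⟨t, η, ht, ht4, hη0, hη12, ?_, ?_⟩
  · refine (mul_le_mul_of_nonneg_left ?_ hC.le).trans htC
    linarith
  intro E1 R hE10 hR
  obtain ⟨q, hq⟩ : ∃ q : ℝ, q = min (min 1 (R / 20)) (min (η / E1) (t ^ (2 * N) / (4 * C4))) :=
    ⟨_, rfl⟩
  have hq0 : 0 < q := by
    rw [hq]
    exact lt_min (lt_min one_pos (by positivity)) (lt_min (by positivity) (by positivity))
  have hq1 : q ≤ 1 := by
    rw [hq]
    exact (min_le_left _ _).trans (min_le_left _ _)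
  have hqR : q ≤ R / 20 := by
    rw [hq]
    exact (min_le_left _ _).trans (min_le_right _ _)
  have hqE : q ≤ η / E1 := by
    rw [hq]
    exact (min_le_right _ _).trans (min_le_left _ _)
  have hqC : q ≤ t ^ (2 * N) / (4 * C4) := by
    rw [hq]
    exact (min_le_right _ _).trans (min_le_right _ _)
  refine ⟨q, hq0, hq1, ?_, ?_, ?_⟩
  · calc E1 * q ≤ E1 * (η / E1) := mul_le_mul_of_nonneg_left hqE hE10.le
      _ = η := by field_simp
  · calc 2 * C4 * q / t ^ (2 * N) ≤ 2 * C4 * (t ^ (2 * N) / (4 * C4)) / t ^ (2 * N) := by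
          gcongr
      _ = 1 / 2 := by
          field_simp
          norm_num
  · intro s hs hsq
    have h1 : s ^ 2 ≤ s := by nlinarith
    linarith

/-- **Approximation at one point**: the constants do not depend on the function or the
leaves. -/
theorem approx_zero (k : ℕ) (X Y : Type) [NormedAddCommGroup X] [NormedSpace ℝ X]
    [FiniteDimensional ℝ X] [NormedAddCommGroup Y] [NormedSpace ℝ Y] [FiniteDimensional ℝ Y] :
    ∃ δ : ℝ, 0 < δ ∧ ∀ D K M R : ℝ, 0 ≤ D → 0 ≤ K → 0 < R → ∃ C r1 : ℝ, 0 ≤ C ∧ 0 < r1 ∧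
      ∀ (F : X × Y → ℝ) (σ : X × Y → X → X × Y) (τ : X × Y → Y → X × Y),
      LeafHyp (k + 1) F σ τ δ D K R → (∀ z, ‖z‖ ≤ R → |F z| ≤ M) → Approx k F C r1 0 := by
  obtain ⟨C, C4, hC, hC4, hstep⟩ := rec_step (k + 1) X Y
  obtain ⟨t, η, ht, ht4, hη0, hη12, hηC, hqex⟩ := exists_consts (k + 1) hC hC4
  obtain ⟨N, hN⟩ : ∃ N : ℕ, N = k + 1 := ⟨_, rfl⟩
  rw [← hN] at hstep hηC hqex
  refine ⟨η, hη0, ?_⟩
  intro D K M R hD hK hR
  obtain ⟨E1, hE1⟩ : ∃ E1 : ℝ, E1 = (1 + (N + 1).factorial * D ^ (N + 1)) * 3 ^ (N + 1) :=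
    ⟨_, rfl⟩
  have hE10 : 0 < E1 := by rw [hE1]; positivity
  obtain ⟨q, hq0, hq1, hEq, hCq, hqR2⟩ := hqex E1 R hE10 hR
  obtain ⟨A, hA⟩ : ∃ A : ℝ, A = max K (M / q ^ (2 * N + 1)) := ⟨_, rfl⟩
  have hKA : K ≤ A := by
    rw [hA]
    exact le_max_left _ _
  have hA0 : 0 ≤ A := hK.trans hKA
  have hMA : M ≤ A * q ^ (2 * N + 1) := by
    calc M = M / q ^ (2 * N + 1) * q ^ (2 * N + 1) := by field_simp
      _ ≤ A * q ^ (2 * N + 1) := by
          refine mul_le_mul_of_nonneg_right ?_ (by positivity)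
          rw [hA]
          exact le_max_right _ _
  refine ⟨A * (1 + 1 / t ^ (2 * N)), q ^ 2, by positivity, by positivity, ?_⟩
  intro F σ τ hL hM
  rw [← hN] at hL
  refine approx_of_scales hN hq0 hq1 ht ht4 hA0 ?_
  -- the polynomials at all scales
  intro i
  induction i with
  | zero =>
    refine ⟨fun _ => 0, isPoly_const N 0, ?_, ?_⟩
    · intro y hy
      rw [pow_zero, one_mul] at hy ⊢
      rw [sub_zero]
      exact (hM y (hy.trans (hqR2 q hq0 le_rfl).le)).trans hMA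
    · intro j _ y _
      have h1 : iteratedFDeriv ℝ j (fun _ : X × Y => (0 : ℝ)) y = 0 := by
        rw [iteratedFDeriv_fun_zero]
        rfl
      rw [h1, norm_zero, pow_zero, sub_self, mul_zero]
  | succ i ih =>
    obtain ⟨P, hP, hPF, hPd⟩ := ih
    have hti1 : t ^ i ≤ 1 := pow_le_one₀ ht.le (by linarith)
    have hti0 : 0 < t ^ i := by positivity
    have hqi : t ^ i * q ≤ q := mul_le_of_le_one_left hq0.le hti1
    have hqi0 : 0 < t ^ i * q := by positivity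
    have hE : (1 + (N + 1).factorial * D ^ (N + 1)) * 3 ^ (N + 1) * (t ^ i * q) ≤ η := by
      rw [← hE1]
      exact (mul_le_mul_of_nonneg_left hqi hE10.le).trans hEq
    have hB : A * (1 - t ^ i) ≤ A := by
      calc A * (1 - t ^ i) ≤ A * 1 := mul_le_mul_of_nonneg_left (by linarith) hA0
        _ = A := mul_one A
    obtain ⟨P', hP', hP'F, hP'd⟩ := hstep F σ τ η D K R A (t ^ i * q) t η
      (A * (1 - t ^ i)) hη0.le hη12 le_rfl (by linarith) hD hK hKA hL hqi0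
      (hqi.trans hq1) (hqR2 _ hqi0 hqi) ht ht4 hηC hE hB P hP hPF hPd
    have h1 : t * (t ^ i * q) = t ^ (i + 1) * q := by ring
    rw [h1] at hP'F hP'd
    refine ⟨P', hP', hP'F, ?_⟩
    intro j hj y hy
    refine (hP'd j hj y hy).trans ?_
    have h2 : 2 * C4 * A * (t ^ i * q) / t ^ (2 * N) =
        (A * t ^ i) * (2 * C4 * q / t ^ (2 * N)) := by
      ring
    rw [h2]
    have h3 : (A * t ^ i) * (2 * C4 * q / t ^ (2 * N)) ≤ (A * t ^ i) * (1 / 2) :=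
      mul_le_mul_of_nonneg_left hCq (by positivity)
    have h4 : A * t ^ (i + 1) ≤ (A * t ^ i) * (1 / 2) := by
      rw [pow_succ, ← mul_assoc]
      exact mul_le_mul_of_nonneg_left (by linarith) (by positivity)
    linarith

end Vale.Agent.P207.N3.H289
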